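import Mathlib

open MeasureTheory ENNReal

set_option linter.unusedSectionVars false

namespace Vale.Agent.Lib.P121

variable {X : Type*} [MeasurableSpace X]

/-- The abstract data behind the non existence of optimal Monge plans: a measure `ν` on `A`,
two families of edges `(a, b j a, d j a)`, a cost `c` and a dual potential `u` whose contact set
consists of the edges. -/
structure AbsData (c : X → X → X → ℝ≥0∞) (u : X → ℝ≥0∞) (ν : Measure X) (A : Set X)
    (b d : Bool → X → X) : Prop where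
  c_meas : Measurable (fun p : X × X × X => c p.1 p.2.1 p.2.2)
  c_swap23 : ∀ x y z, c x y z = c x z y
  c_cycle : ∀ x y z, c x y z = c y z x
  u_meas : Measurable u
  A_meas : MeasurableSet A
  ν_total : 6 * ν Set.univ = 1
  ν_conc : ν Aᶜ = 0
  b_ae : ∀ j, AEMeasurable (b j) ν
  d_ae : ∀ j, AEMeasurable (d j) ν
  b_img : ∀ j P, MeasurableSet P → P ⊆ A → MeasurableSet (b j '' P)
  d_img : ∀ j P, MeasurableSet P → P ⊆ A → MeasurableSet (d j '' P)
  b_not_A : ∀ j a, a ∈ A → b j a ∉ A
  d_not_A : ∀ j a, a ∈ A → d j a ∉ A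
  b_ne_d : ∀ j k a a', a ∈ A → a' ∈ A → b j a ≠ d k a'
  b_ne_b : ∀ j k a a', j ≠ k → a ∈ A → a' ∈ A → b j a ≠ b k a'
  d_ne_d : ∀ j k a a', j ≠ k → a ∈ A → a' ∈ A → d j a ≠ d k a'
  b_inj : ∀ j, Set.InjOn (b j) A
  d_inj : ∀ j, Set.InjOn (d j) A
  bound : ∃ M : ℝ≥0∞, M ≠ ⊤ ∧ ∀ x, x ∈ A ∨ (∃ j, x ∈ b j '' A ∨ x ∈ d j '' A) → u x ≤ M
  dual : ∀ x y z, (x ∈ A ∨ (∃ j, x ∈ b j '' A ∨ x ∈ d j '' A)) →
    (y ∈ A ∨ (∃ j, y ∈ b j '' A ∨ y ∈ d j '' A)) →
    (z ∈ A ∨ (∃ j, z ∈ b j '' A ∨ z ∈ d j '' A)) → u x + u y + u z ≤ c x y z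
  edge_eq : ∀ j a, a ∈ A → c a (b j a) (d j a) = u a + u (b j a) + u (d j a)
  contact : ∀ j a x y, a ∈ A → (x ∈ A ∨ (∃ j, x ∈ b j '' A ∨ x ∈ d j '' A)) →
    (y ∈ A ∨ (∃ j, y ∈ b j '' A ∨ y ∈ d j '' A)) →
    c x y (b j a) = u x + u y + u (b j a) → (x = a ∧ y = d j a) ∨ (x = d j a ∧ y = a)

/-- The measure built from the edges. -/
noncomputable def muOf (ν : Measure X) (b d : Bool → X → X) : Measure X :=
  ν + ν + ν.map (b false) + ν.map (d false) + ν.map (b true) + ν.map (d true)

/-- The support set. -/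
def SOf (A : Set X) (b d : Bool → X → X) : Set X :=
  {x | x ∈ A ∨ (∃ j, x ∈ b j '' A ∨ x ∈ d j '' A)}

/-- The plan built from the edges. -/
noncomputable def piOf (ν : Measure X) (b d : Bool → X → X) : Measure (X × X × X) :=
  (ν.map (fun a => (a, b false a, d false a)) + ν.map (fun a => (b false a, d false a, a))
    + ν.map (fun a => (d false a, a, b false a)))
  + (ν.map (fun a => (a, b true a, d true a)) + ν.map (fun a => (b true a, d true a, a))
    + ν.map (fun a => (d true a, a, b true a)))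

section

variable {c : X → X → X → ℝ≥0∞} {u : X → ℝ≥0∞} {ν : Measure X} {A : Set X} {b d : Bool → X → X}

lemma AbsData.S_meas (h : AbsData c u ν A b d) : MeasurableSet (SOf A b d) := by
  have : SOf A b d = A ∪ (b false '' A ∪ d false '' A) ∪ (b true '' A ∪ d true '' A) := by
    ext x
    simp only [SOf, Set.mem_ofPred_eq, Set.mem_union, Bool.exists_bool]
    tauto
  rw [this]
  exact (h.A_meas.union ((h.b_img _ _ h.A_meas subset_rfl).union (h.d_img _ _ h.A_meas subset_rfl))).union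
    ((h.b_img _ _ h.A_meas subset_rfl).union (h.d_img _ _ h.A_meas subset_rfl))

lemma AbsData.mem_S_of_A (_h : AbsData c u ν A b d) {a : X} (ha : a ∈ A) : a ∈ SOf A b d :=
  Or.inl ha

lemma AbsData.b_mem_S (_h : AbsData c u ν A b d) (j : Bool) {a : X} (ha : a ∈ A) :
    b j a ∈ SOf A b d := Or.inr ⟨j, Or.inl ⟨a, ha, rfl⟩⟩

lemma AbsData.d_mem_S (_h : AbsData c u ν A b d) (j : Bool) {a : X} (ha : a ∈ A) :
    d j a ∈ SOf A b d := Or.inr ⟨j, Or.inr ⟨a, ha, rfl⟩⟩

lemma AbsData.ae_A (h : AbsData c u ν A b d) : ∀ᵐ a ∂ν, a ∈ A := by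
  rw [ae_iff]
  exact h.ν_conc

lemma AbsData.mu_apply (h : AbsData c u ν A b d) {s : Set X} (hs : MeasurableSet s) :
    muOf ν b d s = ν s + ν s + ν (b false ⁻¹' s) + ν (d false ⁻¹' s)
      + ν (b true ⁻¹' s) + ν (d true ⁻¹' s) := by
  unfold muOf
  simp only [Measure.add_apply]
  rw [Measure.map_apply_of_aemeasurable (h.b_ae _) hs, Measure.map_apply_of_aemeasurable (h.d_ae _) hs,
    Measure.map_apply_of_aemeasurable (h.b_ae _) hs, Measure.map_apply_of_aemeasurable (h.d_ae _) hs]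

lemma AbsData.mu_prob (h : AbsData c u ν A b d) : IsProbabilityMeasure (muOf ν b d) := by
  constructor
  rw [h.mu_apply MeasurableSet.univ]
  simp only [Set.preimage_univ]
  have := h.ν_total
  calc ν Set.univ + ν Set.univ + ν Set.univ + ν Set.univ + ν Set.univ + ν Set.univ
      = 6 * ν Set.univ := by ring
    _ = 1 := this

lemma AbsData.mu_S (h : AbsData c u ν A b d) : muOf ν b d (SOf A b d)ᶜ = 0 := by
  rw [h.mu_apply h.S_meas.compl]
  have h0 : ν (SOf A b d)ᶜ = 0 := by
    apply measure_mono_null _ h.ν_conc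
    intro x hx hA
    exact hx (Or.inl hA)
  have hb : ∀ j, ν (b j ⁻¹' (SOf A b d)ᶜ) = 0 := fun j => by
    apply measure_mono_null _ h.ν_conc
    intro x hx hA
    exact hx (h.b_mem_S j hA)
  have hd : ∀ j, ν (d j ⁻¹' (SOf A b d)ᶜ) = 0 := fun j => by
    apply measure_mono_null _ h.ν_conc
    intro x hx hA
    exact hx (h.d_mem_S j hA)
  rw [h0, hb, hd, hb, hd]
  simp

/-- The integral of `u` against `μ` as a sum over the two families. -/
noncomputable def Ij (u : X → ℝ≥0∞) (ν : Measure X) (b d : Bool → X → X) (j : Bool) : ℝ≥0∞ :=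
  ∫⁻ a, u a + u (b j a) + u (d j a) ∂ν

lemma AbsData.Ij_eq (h : AbsData c u ν A b d) (j : Bool) :
    Ij u ν b d j = ∫⁻ a, u a ∂ν + ∫⁻ a, u (b j a) ∂ν + ∫⁻ a, u (d j a) ∂ν := by
  unfold Ij
  have h1 : AEMeasurable (fun a => u a + u (b j a)) ν :=
    (h.u_meas.aemeasurable).add (h.u_meas.comp_aemeasurable (h.b_ae j))
  rw [lintegral_add_left' h1, lintegral_add_left' h.u_meas.aemeasurable]

lemma AbsData.lint_mu (h : AbsData c u ν A b d) :
    ∫⁻ x, u x ∂(muOf ν b d) = Ij u ν b d false + Ij u ν b d true := by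
  unfold muOf
  simp only [lintegral_add_measure]
  rw [lintegral_map' h.u_meas.aemeasurable (h.b_ae _), lintegral_map' h.u_meas.aemeasurable (h.d_ae _),
    lintegral_map' h.u_meas.aemeasurable (h.b_ae _), lintegral_map' h.u_meas.aemeasurable (h.d_ae _),
    h.Ij_eq, h.Ij_eq]
  ring

lemma AbsData.lint_finite (h : AbsData c u ν A b d) :
    ∫⁻ x, u x ∂(muOf ν b d) ≠ ⊤ := by
  obtain ⟨M, hM, hle⟩ := h.bound
  have := h.mu_prob
  have hae : ∀ᵐ x ∂(muOf ν b d), u x ≤ M := by
    have : ∀ᵐ x ∂(muOf ν b d), x ∈ SOf A b d := by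
      rw [ae_iff]; exact h.mu_S
    exact this.mono fun x hx => hle x hx
  have : ∫⁻ x, u x ∂(muOf ν b d) ≤ M := by
    calc ∫⁻ x, u x ∂(muOf ν b d) ≤ ∫⁻ _, M ∂(muOf ν b d) := lintegral_mono_ae hae
      _ = M := by simp
  exact ne_top_of_le_ne_top hM this

/-- Weak duality: every coupling costs at least `3 ∫ u dμ`. -/
lemma AbsData.weak (h : AbsData c u ν A b d) {π : Measure (X × X × X)}
    (h1 : π.map (fun p => p.1) = muOf ν b d) (h2 : π.map (fun p => p.2.1) = muOf ν b d)
    (h3 : π.map (fun p => p.2.2) = muOf ν b d) :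
    3 * ∫⁻ x, u x ∂(muOf ν b d) ≤ ∫⁻ p, c p.1 p.2.1 p.2.2 ∂π := by
  have m1 : Measurable (fun p : X × X × X => p.1) := measurable_fst
  have m2 : Measurable (fun p : X × X × X => p.2.1) := measurable_fst.comp measurable_snd
  have m3 : Measurable (fun p : X × X × X => p.2.2) := measurable_snd.comp measurable_snd
  have hS : MeasurableSet (SOf A b d)ᶜ := h.S_meas.compl
  have a1 : ∀ᵐ p ∂π, p.1 ∈ SOf A b d := by
    rw [ae_iff]
    have := h.mu_S
    rw [← h1, Measure.map_apply m1 hS] at this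
    exact this
  have a2 : ∀ᵐ p ∂π, p.2.1 ∈ SOf A b d := by
    rw [ae_iff]
    have := h.mu_S
    rw [← h2, Measure.map_apply m2 hS] at this
    exact this
  have a3 : ∀ᵐ p ∂π, p.2.2 ∈ SOf A b d := by
    rw [ae_iff]
    have := h.mu_S
    rw [← h3, Measure.map_apply m3 hS] at this
    exact this
  have i1 : ∫⁻ p, u p.1 ∂π = ∫⁻ x, u x ∂(muOf ν b d) := by
    rw [← h1, lintegral_map h.u_meas m1]
  have i2 : ∫⁻ p, u p.2.1 ∂π = ∫⁻ x, u x ∂(muOf ν b d) := by
    rw [← h2, lintegral_map h.u_meas m2]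
  have i3 : ∫⁻ p, u p.2.2 ∂π = ∫⁻ x, u x ∂(muOf ν b d) := by
    rw [← h3, lintegral_map h.u_meas m3]
  have hsum : ∫⁻ p, u p.1 + u p.2.1 + u p.2.2 ∂π = 3 * ∫⁻ x, u x ∂(muOf ν b d) := by
    have h12 : Measurable (fun p : X × X × X => u p.1 + u p.2.1) :=
      (h.u_meas.comp m1).add (h.u_meas.comp m2)
    have h11 : Measurable (fun p : X × X × X => u p.1) := h.u_meas.comp m1
    rw [lintegral_add_left h12, lintegral_add_left h11, i1, i2, i3]
    ring
  rw [← hsum]
  apply lintegral_mono_ae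
  filter_upwards [a1, a2, a3] with p p1 p2 p3
  exact h.dual _ _ _ p1 p2 p3

/-- The plan `π₀` is a coupling. -/
lemma AbsData.pi_prob (h : AbsData c u ν A b d) : IsProbabilityMeasure (piOf ν b d) := by
  constructor
  unfold piOf
  have hprod : ∀ j : Bool, (AEMeasurable (fun a => (a, b j a, d j a)) ν) ∧
      (AEMeasurable (fun a => (b j a, d j a, a)) ν) ∧ (AEMeasurable (fun a => (d j a, a, b j a)) ν) := by
    intro j
    refine ⟨aemeasurable_id.prodMk ((h.b_ae j).prodMk (h.d_ae j)),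
      (h.b_ae j).prodMk ((h.d_ae j).prodMk aemeasurable_id),
      (h.d_ae j).prodMk (aemeasurable_id.prodMk (h.b_ae j))⟩
  simp only [Measure.add_apply]
  rw [Measure.map_apply_of_aemeasurable (hprod false).1 MeasurableSet.univ,
    Measure.map_apply_of_aemeasurable (hprod false).2.1 MeasurableSet.univ,
    Measure.map_apply_of_aemeasurable (hprod false).2.2 MeasurableSet.univ,
    Measure.map_apply_of_aemeasurable (hprod true).1 MeasurableSet.univ,
    Measure.map_apply_of_aemeasurable (hprod true).2.1 MeasurableSet.univ,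
    Measure.map_apply_of_aemeasurable (hprod true).2.2 MeasurableSet.univ]
  simp only [Set.preimage_univ]
  have := h.ν_total
  calc ν Set.univ + ν Set.univ + ν Set.univ + (ν Set.univ + ν Set.univ + ν Set.univ)
      = 6 * ν Set.univ := by ring
    _ = 1 := this

lemma AbsData.pi_marg (h : AbsData c u ν A b d) :
    (piOf ν b d).map (fun p => p.1) = muOf ν b d ∧
    (piOf ν b d).map (fun p => p.2.1) = muOf ν b d ∧
    (piOf ν b d).map (fun p => p.2.2) = muOf ν b d := by
  have m1 : Measurable (fun p : X × X × X => p.1) := measurable_fst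
  have m2 : Measurable (fun p : X × X × X => p.2.1) := measurable_fst.comp measurable_snd
  have m3 : Measurable (fun p : X × X × X => p.2.2) := measurable_snd.comp measurable_snd
  have hprod : ∀ j : Bool, (AEMeasurable (fun a => (a, b j a, d j a)) ν) ∧
      (AEMeasurable (fun a => (b j a, d j a, a)) ν) ∧ (AEMeasurable (fun a => (d j a, a, b j a)) ν) := by
    intro j
    refine ⟨aemeasurable_id.prodMk ((h.b_ae j).prodMk (h.d_ae j)),
      (h.b_ae j).prodMk ((h.d_ae j).prodMk aemeasurable_id),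
      (h.d_ae j).prodMk (aemeasurable_id.prodMk (h.b_ae j))⟩
  have mapmap : ∀ {g : X × X × X → X} (_ : Measurable g) {f : X → X × X × X}
      (_ : AEMeasurable f ν), (ν.map f).map g = ν.map (g ∘ f) := fun hg _ hf =>
    AEMeasurable.map_map_of_aemeasurable hg.aemeasurable hf
  have hid : ν.map (fun a : X => a) = ν := Measure.map_id
  refine ⟨?_, ?_, ?_⟩
  · unfold piOf muOf
    simp only [Measure.map_add _ _ m1]
    rw [mapmap m1 (hprod false).1, mapmap m1 (hprod false).2.1, mapmap m1 (hprod false).2.2,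
      mapmap m1 (hprod true).1, mapmap m1 (hprod true).2.1, mapmap m1 (hprod true).2.2]
    have e1 : ∀ j, (ν.map ((fun p : X × X × X => p.1) ∘ fun a => (a, b j a, d j a))) = ν := fun j => hid
    have e2 : ∀ j, (ν.map ((fun p : X × X × X => p.1) ∘ fun a => (b j a, d j a, a))) = ν.map (b j) :=
      fun j => rfl
    have e3 : ∀ j, (ν.map ((fun p : X × X × X => p.1) ∘ fun a => (d j a, a, b j a))) = ν.map (d j) :=
      fun j => rfl
    rw [e1, e2, e3, e1, e2, e3]
    abel
  · unfold piOf muOf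
    simp only [Measure.map_add _ _ m2]
    rw [mapmap m2 (hprod false).1, mapmap m2 (hprod false).2.1, mapmap m2 (hprod false).2.2,
      mapmap m2 (hprod true).1, mapmap m2 (hprod true).2.1, mapmap m2 (hprod true).2.2]
    have e1 : ∀ j, (ν.map ((fun p : X × X × X => p.2.1) ∘ fun a => (a, b j a, d j a))) = ν.map (b j) :=
      fun j => rfl
    have e2 : ∀ j, (ν.map ((fun p : X × X × X => p.2.1) ∘ fun a => (b j a, d j a, a))) = ν.map (d j) :=
      fun j => rfl
    have e3 : ∀ j, (ν.map ((fun p : X × X × X => p.2.1) ∘ fun a => (d j a, a, b j a))) = ν := fun j => hid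
    rw [e1, e2, e3, e1, e2, e3]
    abel
  · unfold piOf muOf
    simp only [Measure.map_add _ _ m3]
    rw [mapmap m3 (hprod false).1, mapmap m3 (hprod false).2.1, mapmap m3 (hprod false).2.2,
      mapmap m3 (hprod true).1, mapmap m3 (hprod true).2.1, mapmap m3 (hprod true).2.2]
    have e1 : ∀ j, (ν.map ((fun p : X × X × X => p.2.2) ∘ fun a => (a, b j a, d j a))) = ν.map (d j) :=
      fun j => rfl
    have e2 : ∀ j, (ν.map ((fun p : X × X × X => p.2.2) ∘ fun a => (b j a, d j a, a))) = ν := fun j => hid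
    have e3 : ∀ j, (ν.map ((fun p : X × X × X => p.2.2) ∘ fun a => (d j a, a, b j a))) = ν.map (b j) :=
      fun j => rfl
    rw [e1, e2, e3, e1, e2, e3]
    abel

/-- The cost of the plan `π₀` equals the dual value. -/
lemma AbsData.pi_cost (h : AbsData c u ν A b d) :
    ∫⁻ p, c p.1 p.2.1 p.2.2 ∂(piOf ν b d) = 3 * ∫⁻ x, u x ∂(muOf ν b d) := by
  have hprod : ∀ j : Bool, (AEMeasurable (fun a => (a, b j a, d j a)) ν) ∧
      (AEMeasurable (fun a => (b j a, d j a, a)) ν) ∧ (AEMeasurable (fun a => (d j a, a, b j a)) ν) := by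
    intro j
    refine ⟨aemeasurable_id.prodMk ((h.b_ae j).prodMk (h.d_ae j)),
      (h.b_ae j).prodMk ((h.d_ae j).prodMk aemeasurable_id),
      (h.d_ae j).prodMk (aemeasurable_id.prodMk (h.b_ae j))⟩
  have key : ∀ j : Bool, ∫⁻ p, c p.1 p.2.1 p.2.2 ∂(ν.map (fun a => (a, b j a, d j a)))
      = Ij u ν b d j ∧ ∫⁻ p, c p.1 p.2.1 p.2.2 ∂(ν.map (fun a => (b j a, d j a, a))) = Ij u ν b d j ∧
      ∫⁻ p, c p.1 p.2.1 p.2.2 ∂(ν.map (fun a => (d j a, a, b j a))) = Ij u ν b d j := by
    intro j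
    refine ⟨?_, ?_, ?_⟩
    · rw [lintegral_map' h.c_meas.aemeasurable (hprod j).1]
      unfold Ij
      apply lintegral_congr_ae
      filter_upwards [h.ae_A] with a ha
      exact h.edge_eq j a ha
    · rw [lintegral_map' h.c_meas.aemeasurable (hprod j).2.1]
      unfold Ij
      apply lintegral_congr_ae
      filter_upwards [h.ae_A] with a ha
      rw [← h.c_cycle]
      exact h.edge_eq j a ha
    · rw [lintegral_map' h.c_meas.aemeasurable (hprod j).2.2]
      unfold Ij
      apply lintegral_congr_ae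
      filter_upwards [h.ae_A] with a ha
      rw [← h.c_cycle, ← h.c_cycle]
      exact h.edge_eq j a ha
  unfold piOf
  simp only [lintegral_add_measure]
  rw [(key false).1, (key false).2.1, (key false).2.2, (key true).1, (key true).2.1, (key true).2.2,
    h.lint_mu]
  ring

/-- The mass of the images of a subset of `A`. -/
lemma AbsData.mu_b (h : AbsData c u ν A b d) (j : Bool) {P : Set X} (hP : MeasurableSet P)
    (hPA : P ⊆ A) : muOf ν b d (b j '' P) = ν P := by
  have hQ := h.b_img j P hP hPA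
  rw [h.mu_apply hQ]
  have n0 : ν (b j '' P) = 0 := by
    apply measure_mono_null _ h.ν_conc
    rintro _ ⟨a, ha, rfl⟩ hA
    exact h.b_not_A j a (hPA ha) hA
  have nd : ∀ k, ν (d k ⁻¹' (b j '' P)) = 0 := fun k => by
    apply measure_mono_null _ h.ν_conc
    intro x hx hA
    obtain ⟨a, ha, hax⟩ := hx
    exact h.b_ne_d j k a x (hPA ha) hA hax
  have nb : ∀ k, k ≠ j → ν (b k ⁻¹' (b j '' P)) = 0 := fun k hk => by
    apply measure_mono_null _ h.ν_conc
    intro x hx hA
    obtain ⟨a, ha, hax⟩ := hx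
    exact h.b_ne_b j k a x hk.symm (hPA ha) hA hax
  have self : ν (b j ⁻¹' (b j '' P)) = ν P := by
    apply le_antisymm
    · calc ν (b j ⁻¹' (b j '' P)) ≤ ν (P ∪ Aᶜ) := by
            apply measure_mono
            intro x hx
            by_cases hA : x ∈ A
            · obtain ⟨a, ha, hax⟩ := hx
              left
              have := h.b_inj j (hPA ha) hA hax
              exact this ▸ ha
            · exact Or.inr hA
        _ ≤ ν P + ν Aᶜ := measure_union_le _ _
        _ = ν P := by rw [h.ν_conc, add_zero]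
    · apply measure_mono
      intro x hx
      exact ⟨x, hx, rfl⟩
  cases j with
  | false =>
    rw [n0, nd, nd, nb true (by simp), self]
    simp
  | true =>
    rw [n0, nd, nd, nb false (by simp), self]
    simp

lemma AbsData.mu_d (h : AbsData c u ν A b d) (j : Bool) {P : Set X} (hP : MeasurableSet P)
    (hPA : P ⊆ A) : muOf ν b d (d j '' P) = ν P := by
  have hQ := h.d_img j P hP hPA
  rw [h.mu_apply hQ]
  have n0 : ν (d j '' P) = 0 := by
    apply measure_mono_null _ h.ν_conc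
    rintro _ ⟨a, ha, rfl⟩ hA
    exact h.d_not_A j a (hPA ha) hA
  have nb : ∀ k, ν (b k ⁻¹' (d j '' P)) = 0 := fun k => by
    apply measure_mono_null _ h.ν_conc
    intro x hx hA
    obtain ⟨a, ha, hax⟩ := hx
    exact h.b_ne_d k j x a hA (hPA ha) hax.symm
  have nd : ∀ k, k ≠ j → ν (d k ⁻¹' (d j '' P)) = 0 := fun k hk => by
    apply measure_mono_null _ h.ν_conc
    intro x hx hA
    obtain ⟨a, ha, hax⟩ := hx
    exact h.d_ne_d j k a x hk.symm (hPA ha) hA hax
  have self : ν (d j ⁻¹' (d j '' P)) = ν P := by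
    apply le_antisymm
    · calc ν (d j ⁻¹' (d j '' P)) ≤ ν (P ∪ Aᶜ) := by
            apply measure_mono
            intro x hx
            by_cases hA : x ∈ A
            · obtain ⟨a, ha, hax⟩ := hx
              left
              have := h.d_inj j (hPA ha) hA hax
              exact this ▸ ha
            · exact Or.inr hA
        _ ≤ ν P + ν Aᶜ := measure_union_le _ _
        _ = ν P := by rw [h.ν_conc, add_zero]
    · apply measure_mono
      intro x hx
      exact ⟨x, hx, rfl⟩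
  cases j with
  | false =>
    rw [n0, nb, nb, nd true (by simp), self]
    simp
  | true =>
    rw [n0, nb, nb, nd false (by simp), self]
    simp

/-- The core of the argument: no measurable pair `T2, T3` can realise the dual value. -/
theorem AbsData.no_monge (h : AbsData c u ν A b d) {T2 T3 : X → X} (hT2 : Measurable T2)
    (hT3 : Measurable T3) (p2 : (muOf ν b d).map T2 = muOf ν b d)
    (p3 : (muOf ν b d).map T3 = muOf ν b d)
    (hcost : ∫⁻ x, c x (T2 x) (T3 x) ∂(muOf ν b d) = 3 * ∫⁻ x, u x ∂(muOf ν b d)) : False := by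
  set μ := muOf ν b d with hμ
  have hScompl := h.S_meas.compl
  have a1 : ∀ᵐ x ∂μ, x ∈ SOf A b d := by
    rw [ae_iff]; exact h.mu_S
  have a2 : ∀ᵐ x ∂μ, T2 x ∈ SOf A b d := by
    rw [ae_iff]
    have := h.mu_S
    rw [← hμ, ← p2, Measure.map_apply hT2 hScompl] at this
    exact this
  have a3 : ∀ᵐ x ∂μ, T3 x ∈ SOf A b d := by
    rw [ae_iff]
    have := h.mu_S
    rw [← hμ, ← p3, Measure.map_apply hT3 hScompl] at this
    exact this
  have i2 : ∫⁻ x, u (T2 x) ∂μ = ∫⁻ x, u x ∂μ := by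
    conv_rhs => rw [← p2]
    rw [lintegral_map h.u_meas hT2]
  have i3 : ∫⁻ x, u (T3 x) ∂μ = ∫⁻ x, u x ∂μ := by
    conv_rhs => rw [← p3]
    rw [lintegral_map h.u_meas hT3]
  have hsum : ∫⁻ x, u x + u (T2 x) + u (T3 x) ∂μ = 3 * ∫⁻ x, u x ∂μ := by
    have h12 : Measurable (fun x => u x + u (T2 x)) := h.u_meas.add (h.u_meas.comp hT2)
    rw [lintegral_add_left h12, lintegral_add_left h.u_meas, i2, i3]
    ring
  have hfin : 3 * ∫⁻ x, u x ∂μ ≠ ⊤ := ENNReal.mul_ne_top (by simp) h.lint_finite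
  have hcmeas : AEMeasurable (fun x => c x (T2 x) (T3 x)) μ :=
    (h.c_meas.comp (measurable_id.prodMk (hT2.prodMk hT3))).aemeasurable
  have hle : (fun x => u x + u (T2 x) + u (T3 x)) ≤ᵐ[μ] (fun x => c x (T2 x) (T3 x)) := by
    filter_upwards [a1, a2, a3] with x h1 h2 h3
    exact h.dual _ _ _ h1 h2 h3
  have heq : (fun x => u x + u (T2 x) + u (T3 x)) =ᵐ[μ] (fun x => c x (T2 x) (T3 x)) := by
    apply ae_eq_of_ae_le_of_lintegral_le hle
    · rw [hsum]; exact hfin
    · exact hcmeas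
    · rw [hcost, hsum]
  -- the measure of the exceptional part of `A`
  have step : ∀ j : Bool, ν (A \ T2 ⁻¹' (b j '' A ∪ d j '' A)) = 0 := by
    intro j
    set Sj : Set X := T2 ⁻¹' (b j '' A ∪ d j '' A) with hSj
    have hSjm : MeasurableSet Sj :=
      hT2 ((h.b_img j A h.A_meas subset_rfl).union (h.d_img j A h.A_meas subset_rfl))
    set P := A \ Sj with hP
    have hPm : MeasurableSet P := h.A_meas.diff hSjm
    have hPA : P ⊆ A := Set.sdiff_subset
    set Q := b j '' P with hQ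
    set R := d j '' P with hR
    have hQm : MeasurableSet Q := h.b_img j P hPm hPA
    have hRm : MeasurableSet R := h.d_img j P hPm hPA
    have mQ : μ Q = ν P := h.mu_b j hPm hPA
    have mR : μ R = ν P := h.mu_d j hPm hPA
    have c1 : ∀ᵐ x ∂μ, T2 x ∈ Q → x ∈ R ∧ T3 x ∉ Q := by
      filter_upwards [a1, a2, a3, heq] with x h1 h2 h3 he hx
      obtain ⟨a, ha, hax⟩ := hx
      have hct : c x (T3 x) (b j a) = u x + u (T3 x) + u (b j a) := by
        rw [hax, h.c_swap23, ← he]
        ring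
      rcases h.contact j a x (T3 x) (hPA ha) h1 h3 hct with ⟨e1, e2⟩ | ⟨e1, e2⟩
      · exfalso
        apply ha.2
        rw [← e1]
        show T2 x ∈ b j '' A ∪ d j '' A
        rw [← hax]
        exact Or.inl ⟨a, hPA ha, rfl⟩
      · refine ⟨⟨a, ha, e1.symm⟩, ?_⟩
        rw [e2]
        rintro ⟨a', ha', hab⟩
        exact h.b_not_A j a' (hPA ha') (hab ▸ hPA ha)
    have c2 : ∀ᵐ x ∂μ, T3 x ∈ Q → x ∈ R := by
      filter_upwards [a1, a2, a3, heq] with x h1 h2 h3 he hx
      obtain ⟨a, ha, hax⟩ := hx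
      have hct : c x (T2 x) (b j a) = u x + u (T2 x) + u (b j a) := by
        rw [hax, ← he]
      rcases h.contact j a x (T2 x) (hPA ha) h1 h2 hct with ⟨e1, e2⟩ | ⟨e1, _⟩
      · exfalso
        apply ha.2
        rw [← e1]
        show T2 x ∈ b j '' A ∪ d j '' A
        rw [e2]
        exact Or.inr ⟨a, hPA ha, rfl⟩
      · exact ⟨a, ha, e1.symm⟩
    have hsub : (T2 ⁻¹' Q ∪ T3 ⁻¹' Q : Set X) ≤ᵐ[μ] R := by
      filter_upwards [c1, c2] with x h1 h2 hx
      rcases hx with hx | hx
      · exact (h1 hx).1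
      · exact h2 hx
    have hinter : μ (T2 ⁻¹' Q ∩ T3 ⁻¹' Q) = 0 := by
      rw [← nonpos_iff_eq_zero]
      have : ∀ᵐ x ∂μ, x ∉ T2 ⁻¹' Q ∩ T3 ⁻¹' Q := by
        filter_upwards [c1] with x h1 hx
        exact (h1 hx.1).2 hx.2
      rw [ae_iff] at this
      simp only [not_not] at this
      exact this.le
    have m2 : μ (T2 ⁻¹' Q) = ν P := by
      rw [← Measure.map_apply hT2 hQm, p2]; exact mQ
    have m3 : μ (T3 ⁻¹' Q) = ν P := by
      rw [← Measure.map_apply hT3 hQm, p3]; exact mQ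
    have hunion : μ (T2 ⁻¹' Q ∪ T3 ⁻¹' Q) = ν P + ν P := by
      have := measure_union_add_inter (μ := μ) (T2 ⁻¹' Q) (hT3 hQm)
      rw [hinter, add_zero, m2, m3] at this
      exact this
    have hle2 : ν P + ν P ≤ ν P := by
      rw [← hunion, ← mR]
      exact measure_mono_ae hsub
    have hfinP : ν P ≠ ⊤ := by
      have h6 := h.ν_total
      have hU : ν Set.univ ≠ ⊤ := by
        intro ht
        rw [ht] at h6
        simp at h6
      exact ne_top_of_le_ne_top hU (measure_mono (Set.subset_univ _))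
    by_contra hne
    have hlt : ν P < ν P + ν P := ENNReal.lt_add_right hfinP hne
    exact absurd hle2 (not_le.mpr hlt)
  -- conclusion
  have hA0 : ν A = 0 := by
    apply measure_mono_null _ (measure_union_null (step false) (step true))
    intro x hx
    by_cases h1 : T2 x ∈ b false '' A ∪ d false '' A
    · right
      refine ⟨hx, ?_⟩
      intro h2
      rcases h1 with ⟨a, ha, e1⟩ | ⟨a, ha, e1⟩ <;> rcases h2 with ⟨a', ha', e2⟩ | ⟨a', ha', e2⟩
      · exact h.b_ne_b false true a a' (by simp) ha ha' (e1.trans e2.symm)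
      · exact h.b_ne_d false true a a' ha ha' (e1.trans e2.symm)
      · exact h.b_ne_d true false a' a ha' ha (e2.trans e1.symm)
      · exact h.d_ne_d false true a a' (by simp) ha ha' (e1.trans e2.symm)
    · left
      exact ⟨hx, h1⟩
  have huniv : ν Set.univ = 0 := by
    apply le_antisymm _ zero_le
    calc ν Set.univ = ν (A ∪ Aᶜ) := by rw [Set.union_compl_self]
      _ ≤ ν A + ν Aᶜ := measure_union_le _ _
      _ = 0 := by rw [hA0, h.ν_conc, add_zero]
  have h6 := h.ν_total
  rw [huniv] at h6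
  simp at h6

end

end Vale.Agent.Lib.P121
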