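import Mathlib

open MeasureTheory ENNReal

namespace Vale.Agent.Lib.P121

/-- Euclidean three space. -/
abbrev E3 : Type := EuclideanSpace ℝ (Fin 3)

/-- The three particle Coulomb cost, with value `+∞` when two coordinates coincide
(the inverse of `0` in `ℝ≥0∞` is `∞`). -/
noncomputable def coulomb (x y z : E3) : ℝ≥0∞ :=
  (edist x y)⁻¹ + (edist x z)⁻¹ + (edist y z)⁻¹

/-- `π` is a Borel probability measure on `(ℝ³)³` whose three coordinate marginals equal `μ`. -/
def IsCoupling (μ : Measure E3) (π : Measure (E3 × E3 × E3)) : Prop :=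
  IsProbabilityMeasure π ∧ π.map (fun p => p.1) = μ ∧ π.map (fun p => p.2.1) = μ ∧
    π.map (fun p => p.2.2) = μ

/-- The Kantorovich value `𝓔(μ)`: the infimum of the Coulomb cost over couplings. -/
noncomputable def kantorovich (μ : Measure E3) : ℝ≥0∞ :=
  ⨅ (π : Measure (E3 × E3 × E3)) (_ : IsCoupling μ π), ∫⁻ p, coulomb p.1 p.2.1 p.2.2 ∂π

/-- `μ` admits an optimal Monge plan: Borel maps `T₂, T₃` pushing `μ` to `μ` whose Monge cost
equals the Kantorovich value. -/
def HasOptimalMongePlan (μ : Measure E3) : Prop :=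
  ∃ T₂ T₃ : E3 → E3, Measurable T₂ ∧ Measurable T₃ ∧ μ.map T₂ = μ ∧ μ.map T₃ = μ ∧
    ∫⁻ x, coulomb x (T₂ x) (T₃ x) ∂μ = kantorovich μ

end Vale.Agent.Lib.P121
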