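import Vale.Agent.Lib.P121.Edge

open RealInnerProductSpace

set_option linter.unusedSectionVars false
set_option linter.unnecessarySeqFocus false

namespace Vale.Agent.Lib.P121

variable {V : Type*} [NormedAddCommGroup V] [InnerProductSpace ℝ V]

/-- Dual potential near the centre. -/
noncomputable def f0 (x : V) : ℝ := 17/10 - 40 * ‖x‖ ^ 2

/-- Dual potential near the site `-e`. -/
noncomputable def g0 (e y : V) : ℝ := 2/5 + (5/4) * ⟪e, y + e⟫ - 40 * ‖y + e‖ ^ 2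

/-- Value of the dual potential at `b`, given the edge `(a, b, c)`. -/
noncomputable def Tv (e a b c : V) : ℝ :=
  ‖a - b‖⁻¹ + ‖a - c‖⁻¹ + ‖c - b‖⁻¹ - f0 a - g0 e c

lemma half_cube_bound {r A : ℝ} (hr : 999/1000 ≤ r) (hA : 0 ≤ A) :
    A / (2 * r ^ 3) ≤ (3/4) * A := by
  have hr0 : 0 < r := by linarith
  have h3 : (999/1000 : ℝ) ^ 3 ≤ r ^ 3 := by gcongr
  have h4 : (2/3 : ℝ) ≤ r ^ 3 := by norm_num at h3 ⊢; linarith
  have hpos : 0 < 2 * r ^ 3 := by positivity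
  rw [div_le_iff₀ hpos]
  nlinarith

theorem dual_lower {e a b c x y : V} (he : ‖e‖ = 1) (h : IsEdge e a b c)
    (hxb : x ≠ b) (hxy : x ≠ y) (hyb : y ≠ b) :
    Tv e a b c + (‖x - a‖ ^ 2 + ‖y - c‖ ^ 2)
      ≤ ‖x - b‖⁻¹ + ‖x - y‖⁻¹ + ‖y - b‖⁻¹ - f0 x - g0 e y := by
  have hz := h.z_norm he
  have hw := h.w_norm he
  have hv := h.y_norm he
  have hab : a - b ≠ 0 := by
    intro h0; have := hz.1; rw [h0, norm_zero] at this; norm_num at this
  have hac : a - c ≠ 0 := by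
    intro h0; have := hw.1; rw [h0, norm_zero] at this; norm_num at this
  have hcb : c - b ≠ 0 := by
    intro h0; have := hv.1; rw [h0, norm_zero] at this; norm_num at this
  set p := x - a with hp
  set q := y - c with hq
  have S1 := inv_norm_lower (z := x - b) (z0 := a - b) (sub_ne_zero.mpr hxb) hab
  have S2 := inv_norm_lower (z := x - y) (z0 := a - c) (sub_ne_zero.mpr hxy) hac
  have S3 := inv_norm_lower (z := y - b) (z0 := c - b) (sub_ne_zero.mpr hyb) hcb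
  have e1 : (x - b) - (a - b) = p := by rw [hp]; abel
  have e2 : (x - y) - (a - c) = p - q := by rw [hp, hq]; abel
  have e3 : (y - b) - (c - b) = q := by rw [hq]; abel
  rw [e1] at S1
  rw [e2] at S2
  rw [e3] at S3
  have Q1 := half_cube_bound (A := ‖p‖ ^ 2) hz.1 (by positivity)
  have Q2 := half_cube_bound (A := ‖p - q‖ ^ 2) hw.1 (by positivity)
  have Q3 := half_cube_bound (A := ‖q‖ ^ 2) (r := ‖c - b‖) (by linarith [hv.1]) (by positivity)
  have hpq : ‖p - q‖ ^ 2 ≤ 2 * ‖p‖ ^ 2 + 2 * ‖q‖ ^ 2 := by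
    have := norm_sub_sq_real p q
    have hadd := norm_add_sq_real p q
    have : 0 ≤ ‖p + q‖ ^ 2 := by positivity
    linarith
  -- the quadratic potentials
  have F : f0 x = f0 a - 80 * ⟪a, p⟫ - 40 * ‖p‖ ^ 2 := by
    have : x = a + p := by rw [hp]; abel
    unfold f0
    rw [this, norm_add_sq_real]
    ring
  have G : g0 e y = g0 e c + (5/4) * ⟪e, q⟫ - 80 * ⟪c + e, q⟫ - 40 * ‖q‖ ^ 2 := by
    have : y + e = (c + e) + q := by rw [hq]; abel
    unfold g0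
    rw [this, norm_add_sq_real, inner_add_right]
    ring
  -- Euler-Lagrange relations, tested against p and q
  have EL1 : ⟪N (a - b), p⟫ + ⟪N (a - c), p⟫ + 80 * ⟪a, p⟫ = 0 := by
    have := congrArg (fun v => ⟪v, p⟫) h.el1
    simp only [inner_add_left, real_inner_smul_left, inner_zero_left] at this
    exact this
  have EL2 : - ⟪N (a - c), q⟫ + ⟪N (c - b), q⟫ - (5/4) * ⟪e, q⟫ + 80 * ⟪c + e, q⟫ = 0 := by
    have hN : N (c - a) = - N (a - c) := by rw [← N_neg]; congr 1; abel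
    have := congrArg (fun v => ⟪v, q⟫) h.el2
    simp only [inner_add_left, inner_sub_left, real_inner_smul_left, inner_zero_left, hN,
      inner_neg_left] at this
    simp only [inner_add_left]
    linarith
  have hsplit : ⟪N (a - c), p - q⟫ = ⟪N (a - c), p⟫ - ⟪N (a - c), q⟫ := inner_sub_right _ _ _
  rw [hsplit] at S2
  unfold Tv
  rw [F, G]
  have hp2 : 0 ≤ ‖p‖ ^ 2 := by positivity
  have hq2 : 0 ≤ ‖q‖ ^ 2 := by positivity
  nlinarith

/-- Numerical bounds for the potentials along an edge. -/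
lemma f0_bounds {a : V} (ha : ‖a‖ ≤ 1/1000000) : 169/100 ≤ f0 a ∧ f0 a ≤ 17/10 := by
  unfold f0
  have h0 : 0 ≤ ‖a‖ := norm_nonneg _
  have h1 : ‖a‖ ^ 2 ≤ (1/1000000) ^ 2 := by gcongr
  constructor <;> norm_num at h1 ⊢ <;> nlinarith

lemma g0_bounds {e c : V} (he : ‖e‖ = 1) (hc : ‖c + e‖ ≤ 1/1000000) :
    39/100 ≤ g0 e c ∧ g0 e c ≤ 41/100 := by
  unfold g0
  have h0 : 0 ≤ ‖c + e‖ := norm_nonneg _
  have h1 : ‖c + e‖ ^ 2 ≤ (1/1000000) ^ 2 := by gcongr
  have h2 : |⟪e, c + e⟫| ≤ 1 * ‖c + e‖ := by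
    have := abs_real_inner_le_norm e (c + e)
    rwa [he] at this
  have h3 := abs_le.mp h2
  constructor <;> norm_num at h1 h3 ⊢ <;> nlinarith [h3.1, h3.2]

lemma inv_bounds {r lo hi : ℝ} (hlo : 0 < lo) (h1 : lo ≤ r) (h2 : r ≤ hi) :
    hi⁻¹ ≤ r⁻¹ ∧ r⁻¹ ≤ lo⁻¹ := by
  have hr : 0 < r := by linarith
  have hhi : 0 < hi := by linarith
  exact ⟨inv_anti₀ hr h2, inv_anti₀ hlo h1⟩

lemma Tv_bounds {e a b c : V} (he : ‖e‖ = 1) (h : IsEdge e a b c) :
    38/100 ≤ Tv e a b c ∧ Tv e a b c ≤ 43/100 := by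
  have hz := h.z_norm he
  have hw := h.w_norm he
  have hv := h.y_norm he
  have i1 := inv_bounds (by norm_num) hz.1 hz.2
  have i2 := inv_bounds (by norm_num) hw.1 hw.2
  have i3 := inv_bounds (by norm_num) hv.1 hv.2
  have hf := f0_bounds h.ha
  have hg := g0_bounds he h.hc
  unfold Tv
  norm_num at i1 i2 i3
  constructor <;> linarith [i1.1, i1.2, i2.1, i2.2, i3.1, i3.2, hf.1, hf.2, hg.1, hg.2]

/-- The real Coulomb cost. -/
noncomputable def rc (x y z : V) : ℝ := ‖x - y‖⁻¹ + ‖x - z‖⁻¹ + ‖y - z‖⁻¹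

lemma rc_swap23 (x y z : V) : rc x y z = rc x z y := by
  unfold rc
  rw [norm_sub_rev y z]
  ring

lemma rc_swap12 (x y z : V) : rc x y z = rc y x z := by
  unfold rc
  rw [norm_sub_rev x y]
  ring

lemma rc_nonneg (x y z : V) : 0 ≤ rc x y z := by
  unfold rc; positivity

/-- Two distinct points of the small central ball already cost a lot. -/
lemma gap_AA {x y : V} (z : V) (hx : ‖x‖ ≤ 1/1000000) (hy : ‖y‖ ≤ 1/1000000) (hxy : x ≠ y) :
    6 ≤ rc x y z := by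
  have h1 : ‖x - y‖ ≤ 2/1000000 := by
    have := norm_sub_le x y
    linarith
  have h2 : 0 < ‖x - y‖ := norm_pos_iff.mpr (sub_ne_zero.mpr hxy)
  have h3 : (2/1000000 : ℝ)⁻¹ ≤ ‖x - y‖⁻¹ := inv_anti₀ h2 h1
  unfold rc
  have h4 : 0 ≤ ‖x - z‖⁻¹ := by positivity
  have h5 : 0 ≤ ‖y - z‖⁻¹ := by positivity
  norm_num at h3
  linarith

/-- Distance bound between any two points near unit vectors. -/
lemma outer_dist {x y s t : V} (hs : ‖s‖ = 1) (ht : ‖t‖ = 1) (hx : ‖x - s‖ ≤ 1/5000)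
    (hy : ‖y - t‖ ≤ 1/5000) : ‖x - y‖ ≤ 2 + 1/2500 := by
  have e1 : x - y = (x - s) - (y - t) + (s - t) := by abel
  rw [e1]
  have h1 := norm_add_le ((x - s) - (y - t)) (s - t)
  have h2 := norm_sub_le (x - s) (y - t)
  have h3 := norm_sub_le s t
  rw [hs, ht] at h3
  linarith

lemma outer_inv {x y s t : V} (hs : ‖s‖ = 1) (ht : ‖t‖ = 1) (hx : ‖x - s‖ ≤ 1/5000)
    (hy : ‖y - t‖ ≤ 1/5000) (hxy : x ≠ y) : (2 + 1/2500 : ℝ)⁻¹ ≤ ‖x - y‖⁻¹ :=
  inv_anti₀ (norm_pos_iff.mpr (sub_ne_zero.mpr hxy)) (outer_dist hs ht hx hy)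

/-- Three outer points cost more than the outer potentials. -/
lemma gap_OOO {x y z s t w : V} (hs : ‖s‖ = 1) (ht : ‖t‖ = 1) (hw : ‖w‖ = 1)
    (hx : ‖x - s‖ ≤ 1/5000) (hy : ‖y - t‖ ≤ 1/5000) (hz : ‖z - w‖ ≤ 1/5000)
    (hxy : x ≠ y) (hxz : x ≠ z) (hyz : y ≠ z) : 7/5 ≤ rc x y z := by
  have h1 := outer_inv hs ht hx hy hxy
  have h2 := outer_inv hs hw hx hz hxz
  have h3 := outer_inv ht hw hy hz hyz
  unfold rc
  norm_num at h1 h2 h3
  linarith

/-- A central point and two outer points at non antipodal sites cost more than the potentials. -/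
lemma gap_AOO {x y z s t : V} (hs : ‖s‖ = 1) (ht : ‖t‖ = 1) (hst : ‖s - t‖ ≤ 143/100)
    (hx : ‖x‖ ≤ 1/1000000) (hy : ‖y - s‖ ≤ 1/5000) (hz : ‖z - t‖ ≤ 1/5000)
    (hxy : x ≠ y) (hxz : x ≠ z) (hyz : y ≠ z) : 13/5 ≤ rc x y z := by
  have d1 : ‖x - y‖ ≤ 1001/1000 := by
    have e1 : x - y = x - (y - s) - s := by abel
    rw [e1]
    have h1 := norm_sub_le (x - (y - s)) s
    have h2 := norm_sub_le x (y - s)
    rw [hs] at h1
    linarith
  have d2 : ‖x - z‖ ≤ 1001/1000 := by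
    have e1 : x - z = x - (z - t) - t := by abel
    rw [e1]
    have h1 := norm_sub_le (x - (z - t)) t
    have h2 := norm_sub_le x (z - t)
    rw [ht] at h1
    linarith
  have d3 : ‖y - z‖ ≤ 3/2 := by
    have e1 : y - z = (y - s) - (z - t) + (s - t) := by abel
    rw [e1]
    have h1 := norm_add_le ((y - s) - (z - t)) (s - t)
    have h2 := norm_sub_le (y - s) (z - t)
    linarith
  have i1 := inv_anti₀ (norm_pos_iff.mpr (sub_ne_zero.mpr hxy)) d1
  have i2 := inv_anti₀ (norm_pos_iff.mpr (sub_ne_zero.mpr hxz)) d2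
  have i3 := inv_anti₀ (norm_pos_iff.mpr (sub_ne_zero.mpr hyz)) d3
  unfold rc
  norm_num at i1 i2 i3
  linarith

end Vale.Agent.Lib.P121
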