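import Vale.Agent.Lib.P121.Vec

open RealInnerProductSpace

namespace Vale.Agent.Lib.P121

variable {V : Type*} [NormedAddCommGroup V] [InnerProductSpace ℝ V]

/-- The first order conditions describing an edge `(a, b, c)` of the contact set for the axis `e`. -/
structure IsEdge (e a b c : V) : Prop where
  ha : ‖a‖ ≤ 1/1000000
  hb : ‖b - e‖ ≤ 1/5000
  hc : ‖c + e‖ ≤ 1/1000000
  el1 : N (a - b) + N (a - c) + (80:ℝ) • a = 0
  el2 : N (c - a) + N (c - b) - (5/4:ℝ) • e + (80:ℝ) • (c + e) = 0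

section geometry

variable {e a b c : V}

lemma IsEdge.z_near (h : IsEdge e a b c) : ‖(a - b) - (-e)‖ ≤ 1/1000 := by
  have : (a - b) - (-e) = a - (b - e) := by abel
  rw [this]
  have h1 := norm_sub_le a (b - e)
  have h2 := h.ha
  have h3 := h.hb
  norm_num at *
  linarith

lemma IsEdge.w_near (h : IsEdge e a b c) : ‖(a - c) - e‖ ≤ 1/1000 := by
  have : (a - c) - e = a - (c + e) := by abel
  rw [this]
  have h1 := norm_sub_le a (c + e)
  have h2 := h.ha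
  have h3 := h.hc
  norm_num at *
  linarith

lemma IsEdge.y_near (h : IsEdge e a b c) : ‖(1/2 : ℝ) • (c - b) - (-e)‖ ≤ 1/1000 := by
  have : (1/2 : ℝ) • (c - b) - (-e) = (1/2 : ℝ) • ((c + e) - (b - e)) := by module
  rw [this, norm_smul]
  have h1 := norm_sub_le (c + e) (b - e)
  have h2 := h.hb
  have h3 := h.hc
  norm_num at *
  linarith

omit [InnerProductSpace ℝ V] in
lemma norm_bounds_of_near {e z : V} (he : ‖e‖ = 1) (h : ‖z - e‖ ≤ 1/1000) :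
    999/1000 ≤ ‖z‖ ∧ ‖z‖ ≤ 1001/1000 := by
  have := abs_norm_sub_norm_le z e
  rw [he] at this
  have h2 := abs_le.mp (le_trans this h)
  constructor <;> linarith [h2.1, h2.2]

omit [InnerProductSpace ℝ V] in
lemma norm_bounds_of_near' {e z : V} (he : ‖e‖ = 1) (h : ‖z - (-e)‖ ≤ 1/1000) :
    999/1000 ≤ ‖z‖ ∧ ‖z‖ ≤ 1001/1000 :=
  norm_bounds_of_near (e := -e) (by rwa [norm_neg]) h

lemma IsEdge.z_norm (h : IsEdge e a b c) (he : ‖e‖ = 1) :
    999/1000 ≤ ‖a - b‖ ∧ ‖a - b‖ ≤ 1001/1000 := norm_bounds_of_near' he h.z_near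

lemma IsEdge.w_norm (h : IsEdge e a b c) (he : ‖e‖ = 1) :
    999/1000 ≤ ‖a - c‖ ∧ ‖a - c‖ ≤ 1001/1000 := norm_bounds_of_near he h.w_near

lemma IsEdge.y_norm (h : IsEdge e a b c) (he : ‖e‖ = 1) :
    1998/1000 ≤ ‖c - b‖ ∧ ‖c - b‖ ≤ 2002/1000 := by
  have h1 := norm_bounds_of_near' he h.y_near
  rw [norm_smul] at h1
  have : ‖(1/2 : ℝ)‖ = 1/2 := by norm_num
  rw [this] at h1
  constructor <;> linarith [h1.1, h1.2]

end geometry

/-- The linear map approximating `N` near `± e`. -/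
noncomputable def Hm (e v : V) : V := (3 * ⟪e, v⟫) • e - v

lemma Hm_sub (e v w : V) : Hm e (v - w) = Hm e v - Hm e w := by
  unfold Hm
  rw [inner_sub_right]
  module

lemma Hm_smul (e v : V) (r : ℝ) : Hm e (r • v) = r • Hm e v := by
  unfold Hm
  rw [real_inner_smul_right]
  module

lemma N_approx_neg {e z1 z2 : V} (he : ‖e‖ = 1) (h1 : ‖z1 - (-e)‖ ≤ 1/1000)
    (h2 : ‖z2 - (-e)‖ ≤ 1/1000) :
    ‖N z1 - N z2 - Hm e (z1 - z2)‖ ≤ (1/20) * ‖z1 - z2‖ := by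
  have := N_approx (u := -e) (by rwa [norm_neg]) h1 h2
  have e1 : (3 * ⟪-e, z1 - z2⟫) • (-e) = (3 * ⟪e, z1 - z2⟫) • e := by
    rw [inner_neg_left]
    module
  rw [e1] at this
  exact this

/-- The Lipschitz relations between two edges. -/
theorem edge_lip {e a1 b1 c1 a2 b2 c2 : V} (he : ‖e‖ = 1)
    (h1 : IsEdge e a1 b1 c1) (h2 : IsEdge e a2 b2 c2) :
    ‖a1 - a2‖ ≤ ‖b1 - b2‖ ∧ ‖a1 - a2‖ ≤ 21 * ‖c1 - c2‖ ∧
      ‖b1 - b2‖ ≤ 200 * ‖a1 - a2‖ ∧ ‖c1 - c2‖ ≤ ‖a1 - a2‖ := by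
  set da := ‖a1 - a2‖ with hda
  set db := ‖b1 - b2‖ with hdb
  set dc := ‖c1 - c2‖ with hdc
  have hda0 : 0 ≤ da := norm_nonneg _
  have hdb0 : 0 ≤ db := norm_nonneg _
  have hdc0 : 0 ≤ dc := norm_nonneg _
  set dz := ‖(a1 - b1) - (a2 - b2)‖ with hdz
  set dw := ‖(a1 - c1) - (a2 - c2)‖ with hdw
  set dy := ‖(c1 - b1) - (c2 - b2)‖ with hdy
  have hdz1 : dz ≤ da + db := by
    have : (a1 - b1) - (a2 - b2) = (a1 - a2) - (b1 - b2) := by abel
    rw [hdz, this]; exact norm_sub_le _ _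
  have hdz2 : db ≤ da + dz := by
    have : b1 - b2 = (a1 - a2) - ((a1 - b1) - (a2 - b2)) := by abel
    rw [hdb, this]; exact norm_sub_le _ _
  have hdw1 : dw ≤ da + dc := by
    have : (a1 - c1) - (a2 - c2) = (a1 - a2) - (c1 - c2) := by abel
    rw [hdw, this]; exact norm_sub_le _ _
  have hdy1 : dy ≤ db + dc := by
    have : (c1 - b1) - (c2 - b2) = (c1 - c2) - (b1 - b2) := by abel
    rw [hdy, this, add_comm]; exact norm_sub_le _ _
  set X := N (a1 - b1) - N (a2 - b2) with hX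
  set Y := N (a1 - c1) - N (a2 - c2) with hY
  set Zz := N (c1 - b1) - N (c2 - b2) with hZ
  have hXu : ‖X‖ ≤ 3 * dz :=
    N_lip (by linarith [(h1.z_norm he).1]) (by linarith [(h2.z_norm he).1])
  have hXl : dz ≤ 2 * ‖X‖ := by
    have hz1 : a1 - b1 ≠ 0 := by
      intro h; have := (h1.z_norm he).1; rw [h, norm_zero] at this; norm_num at this
    have hz2 : a2 - b2 ≠ 0 := by
      intro h; have := (h2.z_norm he).1; rw [h, norm_zero] at this; norm_num at this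
    exact N_lower hz1 hz2 (by linarith [(h1.z_norm he).2]) (by linarith [(h2.z_norm he).2])
  have hYu : ‖Y‖ ≤ 3 * dw :=
    N_lip (by linarith [(h1.w_norm he).1]) (by linarith [(h2.w_norm he).1])
  have hZu : ‖Zz‖ ≤ (3/8) * dy :=
    N_lip_two (by linarith [(h1.y_norm he).1]) (by linarith [(h2.y_norm he).1])
  have E1 : X + Y + (80:ℝ) • (a1 - a2) = 0 := by
    have := congrArg₂ (fun p q : V => p - q) h1.el1 h2.el1
    simp only [sub_self] at this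
    rw [← this, hX, hY]
    module
  have E2 : - Y + Zz + (80:ℝ) • (c1 - c2) = 0 := by
    have := congrArg₂ (fun p q : V => p - q) h1.el2 h2.el2
    simp only [sub_self] at this
    rw [← this, hZ, hY]
    have n1 : N (c1 - a1) = - N (a1 - c1) := by rw [← N_neg]; congr 1; abel
    have n2 : N (c2 - a2) = - N (a2 - c2) := by rw [← N_neg]; congr 1; abel
    rw [n1, n2]
    module
  have hsmul80 : ∀ v : V, ‖(80:ℝ) • v‖ = 80 * ‖v‖ := fun v => by
    rw [norm_smul]; norm_num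
  -- basic consequences
  have b1' : 80 * da ≤ ‖X‖ + ‖Y‖ := by
    have : (80:ℝ) • (a1 - a2) = -(X + Y) := by
      rw [eq_neg_iff_add_eq_zero, add_comm]; exact E1
    rw [hda, ← hsmul80, this, norm_neg]
    exact norm_add_le _ _
  have b2' : 80 * dc ≤ ‖Y‖ + ‖Zz‖ := by
    have : (80:ℝ) • (c1 - c2) = Y - Zz := by
      have h0 := E2
      have : (80:ℝ) • (c1 - c2) = - (- Y + Zz) := by
        rw [eq_neg_iff_add_eq_zero, add_comm]; exact h0
      rw [this]; abel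
    rw [hdc, ← hsmul80, this]
    exact norm_sub_le _ _
  have b3' : ‖X‖ ≤ 80 * da + ‖Y‖ := by
    have : X = -((80:ℝ) • (a1 - a2)) - Y := by
      calc X = (X + Y + (80:ℝ) • (a1 - a2)) - (80:ℝ) • (a1 - a2) - Y := by abel
        _ = -((80:ℝ) • (a1 - a2)) - Y := by rw [E1]; abel
    rw [this]
    calc ‖-((80:ℝ) • (a1 - a2)) - Y‖ ≤ ‖-((80:ℝ) • (a1 - a2))‖ + ‖Y‖ := norm_sub_le _ _
      _ = 80 * da + ‖Y‖ := by rw [norm_neg, hsmul80]
  -- approximate linearity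
  have a1' : ‖X - Hm e ((a1 - b1) - (a2 - b2))‖ ≤ (1/20) * dz :=
    N_approx_neg he h1.z_near h2.z_near
  have a2' : ‖Y - Hm e ((a1 - c1) - (a2 - c2))‖ ≤ (1/20) * dw :=
    N_approx he h1.w_near h2.w_near
  have a3' : ‖Zz - (1/8 : ℝ) • Hm e ((c1 - b1) - (c2 - b2))‖ ≤ (1/160) * dy := by
    have h0 := N_approx_neg he h1.y_near h2.y_near
    have hsm : (1/2 : ℝ) • (c1 - b1) - (1/2 : ℝ) • (c2 - b2)
        = (1/2 : ℝ) • ((c1 - b1) - (c2 - b2)) := by module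
    rw [hsm, Hm_smul, norm_smul] at h0
    have e2 : ‖(1/2 : ℝ)‖ = 1/2 := by norm_num
    rw [e2] at h0
    have hZ' : Zz = (1/4 : ℝ) • (N ((1/2 : ℝ) • (c1 - b1)) - N ((1/2 : ℝ) • (c2 - b2))) := by
      rw [hZ, smul_sub, ← N_half, ← N_half]
    have e3 : Zz - (1/8 : ℝ) • Hm e ((c1 - b1) - (c2 - b2))
        = (1/4 : ℝ) • (N ((1/2 : ℝ) • (c1 - b1)) - N ((1/2 : ℝ) • (c2 - b2))
            - (1/2 : ℝ) • Hm e ((c1 - b1) - (c2 - b2))) := by
      rw [hZ']; module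
    rw [e3, norm_smul]
    have e4 : ‖(1/4 : ℝ)‖ = 1/4 := by norm_num
    rw [e4]
    have : 0 ≤ dy := norm_nonneg _
    linarith
  have hHdec : Hm e ((c1 - b1) - (c2 - b2))
      = Hm e ((a1 - b1) - (a2 - b2)) - Hm e ((a1 - c1) - (a2 - c2)) := by
    rw [← Hm_sub]; congr 1; abel
  -- the key vector identity
  set err1 := Zz - (1/8 : ℝ) • Hm e ((c1 - b1) - (c2 - b2)) with herr1
  set err2 := X - Hm e ((a1 - b1) - (a2 - b2)) with herr2
  set err3 := Y - Hm e ((a1 - c1) - (a2 - c2)) with herr3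
  have key : (10:ℝ) • (a1 - a2) = (80:ℝ) • (c1 - c2) - (5/4 : ℝ) • Y
      + (err1 - (1/8 : ℝ) • err2 + (1/8 : ℝ) • err3) := by
    have hZz : Zz = (1/8 : ℝ) • (Hm e ((a1 - b1) - (a2 - b2)) - Hm e ((a1 - c1) - (a2 - c2)))
        + err1 := by
      rw [herr1, hHdec]; abel
    have hX' : X = Hm e ((a1 - b1) - (a2 - b2)) + err2 := by rw [herr2]; abel
    have hY' : Y = Hm e ((a1 - c1) - (a2 - c2)) + err3 := by rw [herr3]; abel
    -- from E1 and E2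
    have e5 : (10:ℝ) • (a1 - a2) = (1/8 : ℝ) • ((80:ℝ) • (a1 - a2)) := by
      rw [smul_smul]; norm_num
    have e6 : (80:ℝ) • (a1 - a2) = -(X + Y) := by
      rw [eq_neg_iff_add_eq_zero, add_comm]; exact E1
    have e7 : (80:ℝ) • (c1 - c2) = Y - Zz := by
      have : (80:ℝ) • (c1 - c2) = - (- Y + Zz) := by
        rw [eq_neg_iff_add_eq_zero, add_comm]; exact E2
      rw [this]; abel
    rw [e5, e6, e7, hZz]
    have h8 : Hm e ((a1 - b1) - (a2 - b2)) = X - err2 := by rw [herr2]; abel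
    have h9 : Hm e ((a1 - c1) - (a2 - c2)) = Y - err3 := by rw [herr3]; abel
    rw [h8, h9]
    module
  have herrb : ‖err1 - (1/8 : ℝ) • err2 + (1/8 : ℝ) • err3‖ ≤ (1/160) * (dy + dz + dw) := by
    have e8 : ‖(1/8 : ℝ) • err2‖ = (1/8) * ‖err2‖ := by rw [norm_smul]; norm_num
    have e9 : ‖(1/8 : ℝ) • err3‖ = (1/8) * ‖err3‖ := by rw [norm_smul]; norm_num
    calc ‖err1 - (1/8 : ℝ) • err2 + (1/8 : ℝ) • err3‖
        ≤ ‖err1 - (1/8 : ℝ) • err2‖ + ‖(1/8 : ℝ) • err3‖ := norm_add_le _ _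
      _ ≤ ‖err1‖ + ‖(1/8 : ℝ) • err2‖ + ‖(1/8 : ℝ) • err3‖ := by
          gcongr; exact norm_sub_le _ _
      _ ≤ (1/160) * (dy + dz + dw) := by
          rw [e8, e9]; linarith
  have hkey : 10 * da ≤ 80 * dc + (5/4) * ‖Y‖ + (1/160) * (dy + dz + dw) := by
    have e10 : ‖(10:ℝ) • (a1 - a2)‖ = 10 * da := by rw [norm_smul]; norm_num [hda]
    have e11 : ‖(5/4 : ℝ) • Y‖ = (5/4) * ‖Y‖ := by rw [norm_smul]; norm_num
    calc 10 * da = ‖(10:ℝ) • (a1 - a2)‖ := e10.symm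
      _ = ‖(80:ℝ) • (c1 - c2) - (5/4 : ℝ) • Y
            + (err1 - (1/8 : ℝ) • err2 + (1/8 : ℝ) • err3)‖ := by rw [key]
      _ ≤ ‖(80:ℝ) • (c1 - c2) - (5/4 : ℝ) • Y‖
            + ‖err1 - (1/8 : ℝ) • err2 + (1/8 : ℝ) • err3‖ := norm_add_le _ _
      _ ≤ ‖(80:ℝ) • (c1 - c2)‖ + ‖(5/4 : ℝ) • Y‖
            + ‖err1 - (1/8 : ℝ) • err2 + (1/8 : ℝ) • err3‖ := by
          gcongr; exact norm_sub_le _ _
      _ ≤ 80 * dc + (5/4) * ‖Y‖ + (1/160) * (dy + dz + dw) := by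
          rw [hsmul80, e11]; linarith
  refine ⟨?_, ?_, ?_, ?_⟩
  · linarith
  · linarith
  · linarith
  · linarith

section existence

/-- The target of `N (a - b)` in the first Euler-Lagrange equation. -/
noncomputable def Wt (a y : V) : V := -((80:ℝ) • a) - N (a - y)

/-- The point `b` solving the first Euler-Lagrange equation. -/
noncomputable def Bt (a y : V) : V := a - Ninv (Wt a y)

/-- The contraction whose fixed point solves the second Euler-Lagrange equation. -/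
noncomputable def Pt (e a y : V) : V :=
  -e + (1/80 : ℝ) • ((5/4 : ℝ) • e - N (y - a) - N (y - Bt a y))

variable {e a y y1 y2 : V}

lemma N_neg_unit (he : ‖e‖ = 1) : N (-e) = e := by
  rw [N_neg, norm_N_of_unit he, neg_neg]

omit [InnerProductSpace ℝ V] in
lemma w_near_aux (ha : ‖a‖ ≤ 1/1000000) (hy : ‖y + e‖ ≤ 1/1000000) :
    ‖(a - y) - e‖ ≤ 2/1000000 := by
  have : (a - y) - e = a - (y + e) := by abel
  rw [this]
  have := norm_sub_le a (y + e)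
  linarith

lemma Wt_near (he : ‖e‖ = 1) (ha : ‖a‖ ≤ 1/1000000) (hy : ‖y + e‖ ≤ 1/1000000) :
    ‖Wt a y - e‖ ≤ 86/1000000 := by
  have h1 := w_near_aux ha hy
  have hb := norm_bounds_of_near he (by linarith : ‖(a - y) - e‖ ≤ 1/1000)
  have h2 : ‖N (a - y) - N e‖ ≤ 3 * ‖(a - y) - e‖ :=
    N_lip (by linarith [hb.1]) (by rw [he]; norm_num)
  have e1 : Wt a y - e = -((80:ℝ) • a) - (N (a - y) - N e) := by
    unfold Wt; rw [norm_N_of_unit he]; abel
  rw [e1]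
  have e2 : ‖(80:ℝ) • a‖ = 80 * ‖a‖ := by rw [norm_smul]; norm_num
  calc ‖-((80:ℝ) • a) - (N (a - y) - N e)‖
      ≤ ‖-((80:ℝ) • a)‖ + ‖N (a - y) - N e‖ := norm_sub_le _ _
    _ ≤ 86/1000000 := by rw [norm_neg, e2]; linarith

lemma Wt_ne (he : ‖e‖ = 1) (ha : ‖a‖ ≤ 1/1000000) (hy : ‖y + e‖ ≤ 1/1000000) :
    Wt a y ≠ 0 := by
  intro h
  have := Wt_near he ha hy
  rw [h, zero_sub, norm_neg, he] at this
  norm_num at this

lemma Ninv_props (he : ‖e‖ = 1) (ha : ‖a‖ ≤ 1/1000000) (hy : ‖y + e‖ ≤ 1/1000000) :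
    Ninv (Wt a y) ≠ 0 ∧ ‖Ninv (Wt a y)‖ ≤ 11/10 ∧ N (Ninv (Wt a y)) = Wt a y ∧
      ‖Ninv (Wt a y) - (-e)‖ ≤ 172/1000000 := by
  have hW := Wt_ne he ha hy
  have hN := N_Ninv hW
  have hnear := Wt_near he ha hy
  have hlow : (10/11 : ℝ) ^ 2 ≤ ‖Wt a y‖ := by
    have := abs_norm_sub_norm_le (Wt a y) e
    rw [he] at this
    have h2 := abs_le.mp (le_trans this hnear)
    norm_num
    linarith [h2.1]
  have hs : 10/11 ≤ √‖Wt a y‖ := Real.le_sqrt_of_sq_le hlow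
  have hspos : 0 < √‖Wt a y‖ := by linarith
  have hz : ‖Ninv (Wt a y)‖ ≤ 11/10 := by
    rw [norm_Ninv hW, inv_le_comm₀ hspos (by norm_num)]
    norm_num
    norm_num at hs
    exact hs
  have hz0 : Ninv (Wt a y) ≠ 0 := by
    intro h0
    have := congrArg N h0
    rw [hN] at this
    apply hW
    rw [this]
    simp [N]
  refine ⟨hz0, hz, hN, ?_⟩
  have hne : -e ≠ 0 := by
    intro h0
    have : ‖-e‖ = 0 := by rw [h0, norm_zero]
    rw [norm_neg, he] at this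
    norm_num at this
  have h3 := N_lower hz0 hne hz (by rw [norm_neg, he]; norm_num)
  rw [hN, N_neg_unit he] at h3
  linarith

lemma Bt_near (he : ‖e‖ = 1) (ha : ‖a‖ ≤ 1/1000000) (hy : ‖y + e‖ ≤ 1/1000000) :
    ‖Bt a y - e‖ ≤ 173/1000000 := by
  have h := (Ninv_props he ha hy).2.2.2
  have e1 : Bt a y - e = a - (Ninv (Wt a y) - (-e)) := by
    unfold Bt; abel
  rw [e1]
  have := norm_sub_le a (Ninv (Wt a y) - (-e))
  linarith

lemma two_near (he : ‖e‖ = 1) {c b : V} (hc : ‖c + e‖ ≤ 1/1000000) (hb : ‖b - e‖ ≤ 1/5000) :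
    9/5 ≤ ‖c - b‖ := by
  have h1 : ‖(2:ℝ) • e‖ = 2 := by rw [norm_smul, he]; norm_num
  have h2 : ‖(2:ℝ) • e‖ ≤ ‖(c + e) - (b - e)‖ + ‖c - b‖ := by
    calc ‖(2:ℝ) • e‖ = ‖((c + e) - (b - e)) - (c - b)‖ := by congr 1; module
      _ ≤ ‖(c + e) - (b - e)‖ + ‖c - b‖ := norm_sub_le _ _
  have h3 := norm_sub_le (c + e) (b - e)
  linarith

lemma Pt_maps (he : ‖e‖ = 1) (ha : ‖a‖ ≤ 1/1000000) (hy : ‖y + e‖ ≤ 1/1000000) :
    ‖Pt e a y + e‖ ≤ 1/1000000 := by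
  have hB := Bt_near he ha hy
  have hB' : ‖Bt a y - e‖ ≤ 1/5000 := by linarith
  have h1 : ‖(y - a) - (-e)‖ ≤ 2/1000000 := by
    have : (y - a) - (-e) = (y + e) - a := by abel
    rw [this]
    have := norm_sub_le (y + e) a
    linarith
  have hb1 := norm_bounds_of_near' he (by linarith : ‖(y - a) - (-e)‖ ≤ 1/1000)
  have h2 : ‖N (y - a) - N (-e)‖ ≤ 3 * ‖(y - a) - (-e)‖ :=
    N_lip (by linarith [hb1.1]) (by rw [norm_neg, he]; norm_num)
  have hm2 : 9/5 ≤ ‖-((2:ℝ) • e)‖ := by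
    rw [norm_neg, norm_smul, he]; norm_num
  have h3 : ‖N (y - Bt a y) - N (-((2:ℝ) • e))‖ ≤ (3/8) * ‖(y - Bt a y) - (-((2:ℝ) • e))‖ :=
    N_lip_two (two_near he hy hB') hm2
  have h4 : ‖(y - Bt a y) - (-((2:ℝ) • e))‖ ≤ 174/1000000 := by
    have : (y - Bt a y) - (-((2:ℝ) • e)) = (y + e) - (Bt a y - e) := by module
    rw [this]
    have := norm_sub_le (y + e) (Bt a y - e)
    linarith
  have e2 : N (-((2:ℝ) • e)) = (1/4 : ℝ) • e := by
    have : (1/2 : ℝ) • (-((2:ℝ) • e)) = -e := by module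
    rw [N_half, this, N_neg_unit he]
  have e3 : Pt e a y + e = (1/80 : ℝ) • (-(N (y - a) - N (-e)) - (N (y - Bt a y) - N (-((2:ℝ) • e)))) := by
    unfold Pt
    rw [N_neg_unit he, e2]
    module
  rw [e3, norm_smul]
  have e4 : ‖(1/80 : ℝ)‖ = 1/80 := by norm_num
  rw [e4]
  have h5 : ‖-(N (y - a) - N (-e)) - (N (y - Bt a y) - N (-((2:ℝ) • e)))‖
      ≤ ‖N (y - a) - N (-e)‖ + ‖N (y - Bt a y) - N (-((2:ℝ) • e))‖ := by
    have := norm_sub_le (-(N (y - a) - N (-e))) (N (y - Bt a y) - N (-((2:ℝ) • e)))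
    rwa [norm_neg] at this
  linarith

lemma Pt_lip (he : ‖e‖ = 1) (ha : ‖a‖ ≤ 1/1000000) (hy1 : ‖y1 + e‖ ≤ 1/1000000)
    (hy2 : ‖y2 + e‖ ≤ 1/1000000) :
    ‖Pt e a y1 - Pt e a y2‖ ≤ (1/10) * ‖y1 - y2‖ := by
  have hD : 0 ≤ ‖y1 - y2‖ := norm_nonneg _
  have hw1 := norm_bounds_of_near he (by linarith [w_near_aux ha hy1] : ‖(a - y1) - e‖ ≤ 1/1000)
  have hw2 := norm_bounds_of_near he (by linarith [w_near_aux ha hy2] : ‖(a - y2) - e‖ ≤ 1/1000)
  -- Lipschitz of W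
  have hW : ‖Wt a y1 - Wt a y2‖ ≤ 3 * ‖y1 - y2‖ := by
    have e1 : Wt a y1 - Wt a y2 = -(N (a - y1) - N (a - y2)) := by unfold Wt; abel
    rw [e1, norm_neg]
    have e2 : (a - y1) - (a - y2) = -(y1 - y2) := by abel
    have := N_lip (z1 := a - y1) (z2 := a - y2) (by linarith [hw1.1]) (by linarith [hw2.1])
    rwa [e2, norm_neg] at this
  have p1 := Ninv_props he ha hy1
  have p2 := Ninv_props he ha hy2
  have hz : ‖Ninv (Wt a y1) - Ninv (Wt a y2)‖ ≤ 6 * ‖y1 - y2‖ := by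
    have := N_lower p1.1 p2.1 p1.2.1 p2.2.1
    rw [p1.2.2.1, p2.2.2.1] at this
    linarith
  have hb : ‖Bt a y1 - Bt a y2‖ ≤ 6 * ‖y1 - y2‖ := by
    have e1 : Bt a y1 - Bt a y2 = -(Ninv (Wt a y1) - Ninv (Wt a y2)) := by unfold Bt; abel
    rw [e1, norm_neg]; exact hz
  have hn1 : ‖N (y1 - a) - N (y2 - a)‖ ≤ 3 * ‖y1 - y2‖ := by
    have e2 : (y1 - a) - (y2 - a) = y1 - y2 := by abel
    have h1 : ‖(y1 - a)‖ = ‖a - y1‖ := norm_sub_rev _ _
    have h2 : ‖(y2 - a)‖ = ‖a - y2‖ := norm_sub_rev _ _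
    have := N_lip (z1 := y1 - a) (z2 := y2 - a) (by rw [h1]; linarith [hw1.1]) (by rw [h2]; linarith [hw2.1])
    rwa [e2] at this
  have hB1 : ‖Bt a y1 - e‖ ≤ 1/5000 := by linarith [Bt_near he ha hy1]
  have hB2 : ‖Bt a y2 - e‖ ≤ 1/5000 := by linarith [Bt_near he ha hy2]
  have hn2 : ‖N (y1 - Bt a y1) - N (y2 - Bt a y2)‖ ≤ (3/8) * (7 * ‖y1 - y2‖) := by
    have h0 := N_lip_two (two_near he hy1 hB1) (two_near he hy2 hB2)
    have e2 : (y1 - Bt a y1) - (y2 - Bt a y2) = (y1 - y2) - (Bt a y1 - Bt a y2) := by abel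
    have h3 : ‖(y1 - Bt a y1) - (y2 - Bt a y2)‖ ≤ 7 * ‖y1 - y2‖ := by
      rw [e2]
      have := norm_sub_le (y1 - y2) (Bt a y1 - Bt a y2)
      linarith
    linarith
  have e3 : Pt e a y1 - Pt e a y2 = (1/80 : ℝ) • (-(N (y1 - a) - N (y2 - a))
      - (N (y1 - Bt a y1) - N (y2 - Bt a y2))) := by
    unfold Pt; module
  rw [e3, norm_smul]
  have e4 : ‖(1/80 : ℝ)‖ = 1/80 := by norm_num
  rw [e4]
  have h5 : ‖-(N (y1 - a) - N (y2 - a)) - (N (y1 - Bt a y1) - N (y2 - Bt a y2))‖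
      ≤ ‖N (y1 - a) - N (y2 - a)‖ + ‖N (y1 - Bt a y1) - N (y2 - Bt a y2)‖ := by
    have := norm_sub_le (-(N (y1 - a) - N (y2 - a))) (N (y1 - Bt a y1) - N (y2 - Bt a y2))
    rwa [norm_neg] at this
  linarith

/-- Existence of an edge through each point of the small ball. -/
theorem edge_exists [CompleteSpace V] (he : ‖e‖ = 1) (ha : ‖a‖ ≤ 1/1000000) :
    ∃ b c, IsEdge e a b c := by
  set D : Set V := Metric.closedBall (-e) (1/1000000) with hDdef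
  have mem_D : ∀ {y : V}, y ∈ D ↔ ‖y + e‖ ≤ 1/1000000 := by
    intro y
    rw [hDdef, Metric.mem_closedBall, dist_eq_norm, sub_neg_eq_add]
  have hmaps : Set.MapsTo (Pt e a) D D := fun y hy => mem_D.mpr (Pt_maps he ha (mem_D.mp hy))
  have hcomplete : IsComplete D := Metric.isClosed_closedBall.isComplete
  have hcontr : ContractingWith (1/10 : NNReal) (hmaps.restrict (Pt e a) D D) := by
    constructor
    · norm_num
    · apply LipschitzWith.of_dist_le_mul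
      intro x y
      have := Pt_lip he ha (mem_D.mp x.2) (mem_D.mp y.2)
      rw [Subtype.dist_eq, Subtype.dist_eq, dist_eq_norm, dist_eq_norm]
      change ‖Pt e a x - Pt e a y‖ ≤ ((1/10 : NNReal) : ℝ) * ‖(x : V) - y‖
      simpa using this
  have hmem : -e ∈ D := mem_D.mpr (by simp)
  obtain ⟨y, hyD, hfix, -, -⟩ := hcontr.exists_fixedPoint' hcomplete hmaps hmem (edist_ne_top _ _)
  have hy := mem_D.mp hyD
  have hP := Ninv_props he ha hy
  refine ⟨Bt a y, y, ⟨ha, by linarith [Bt_near he ha hy], hy, ?_, ?_⟩⟩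
  · have : a - Bt a y = Ninv (Wt a y) := by unfold Bt; abel
    rw [this, hP.2.2.1]
    unfold Wt
    abel
  · have hfix' : Pt e a y = y := hfix
    have e1 : (80:ℝ) • (y + e) = (5/4 : ℝ) • e - N (y - a) - N (y - Bt a y) := by
      have : y + e = (1/80 : ℝ) • ((5/4 : ℝ) • e - N (y - a) - N (y - Bt a y)) := by
        conv_lhs => rw [← hfix']
        unfold Pt
        abel
      rw [this, smul_smul]
      norm_num
    rw [e1]
    abel

end existence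

end Vale.Agent.Lib.P121
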