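import Vale.Agent.Lib.P121.Dual

open RealInnerProductSpace

set_option linter.unusedSectionVars false
set_option linter.unnecessarySeqFocus false

namespace Vale.Agent.Lib.P121

variable {V : Type*} [NormedAddCommGroup V] [InnerProductSpace ℝ V]

/-- The central ball. -/
def Aset : Set V := {x | ‖x‖ ≤ 1/1000000}

/-- The data of the two edge families. -/
structure Fam (e : Bool → V) (β γ : Bool → V → V) : Prop where
  unit : ∀ j, ‖e j‖ = 1
  orth : ⟪e false, e true⟫ = 0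
  edge : ∀ j a, ‖a‖ ≤ 1/1000000 → IsEdge (e j) a (β j a) (γ j a)

section

variable {e : Bool → V} {β γ : Bool → V → V}

/-- The sets of second and third vertices of the edges. -/
def Ob (β : Bool → V → V) (j : Bool) : Set V := β j '' Aset
def Oc (γ : Bool → V → V) (j : Bool) : Set V := γ j '' Aset

lemma orth_any (h : Fam e β γ) {j k : Bool} (hjk : j ≠ k) : ⟪e j, e k⟫ = 0 := by
  cases j <;> cases k <;> simp_all [h.orth, real_inner_comm]

lemma e_sub_sq (h : Fam e β γ) {j k : Bool} (hjk : j ≠ k) : ‖e j - e k‖ ^ 2 = 2 := by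
  rw [norm_sub_sq_real, orth_any h hjk, h.unit, h.unit]; norm_num

lemma e_add_sq (h : Fam e β γ) {j k : Bool} (hjk : j ≠ k) : ‖e j + e k‖ ^ 2 = 2 := by
  rw [norm_add_sq_real, orth_any h hjk, h.unit, h.unit]; norm_num

lemma norm_bd_of_sq {r : ℝ} (h0 : 0 ≤ r) (h : r ^ 2 = 2) : 1 ≤ r ∧ r ≤ 143/100 := by
  constructor
  · nlinarith
  · nlinarith

/-- Separation and closeness of the four outer sites. -/
lemma sep_bb (h : Fam e β γ) {j k : Bool} (hjk : j ≠ k) :
    1 ≤ ‖e j - e k‖ ∧ ‖e j - e k‖ ≤ 143/100 :=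
  norm_bd_of_sq (norm_nonneg _) (e_sub_sq h hjk)

lemma sep_bc (h : Fam e β γ) {j k : Bool} (hjk : j ≠ k) :
    1 ≤ ‖e j - (-e k)‖ ∧ ‖e j - (-e k)‖ ≤ 143/100 := by
  rw [sub_neg_eq_add]
  exact norm_bd_of_sq (norm_nonneg _) (e_add_sq h hjk)

lemma sep_cb (h : Fam e β γ) {j k : Bool} (hjk : j ≠ k) :
    1 ≤ ‖(-e j) - e k‖ ∧ ‖(-e j) - e k‖ ≤ 143/100 := by
  have : (-e j) - e k = -(e j + e k) := by abel
  rw [this, norm_neg]
  exact norm_bd_of_sq (norm_nonneg _) (e_add_sq h hjk)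

lemma sep_cc (h : Fam e β γ) {j k : Bool} (hjk : j ≠ k) :
    1 ≤ ‖(-e j) - (-e k)‖ ∧ ‖(-e j) - (-e k)‖ ≤ 143/100 := by
  have : (-e j) - (-e k) = -(e j - e k) := by abel
  rw [this, norm_neg]
  exact norm_bd_of_sq (norm_nonneg _) (e_sub_sq h hjk)

lemma sep_anti (h : Fam e β γ) (j : Bool) : 1 ≤ ‖e j - (-e j)‖ := by
  have : e j - (-e j) = (2:ℝ) • e j := by module
  rw [this, norm_smul, h.unit]; norm_num

lemma neg_unit (h : Fam e β γ) (j : Bool) : ‖-e j‖ = 1 := by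
  rw [norm_neg, h.unit]

lemma no_two_sites {x s t : V} (hx : ‖x - s‖ ≤ 1/5000) (hx' : ‖x - t‖ ≤ 1/5000)
    (hst : 1 ≤ ‖s - t‖) : False := by
  have : s - t = (x - t) - (x - s) := by abel
  rw [this] at hst
  have := norm_sub_le (x - t) (x - s)
  norm_num at *
  linarith

lemma near_b (h : Fam e β γ) {j : Bool} {x : V} (hx : x ∈ Ob β j) : ‖x - e j‖ ≤ 1/5000 := by
  obtain ⟨a, ha, rfl⟩ := hx
  exact (h.edge j a ha).hb

lemma near_c (h : Fam e β γ) {j : Bool} {x : V} (hx : x ∈ Oc γ j) : ‖x - (-e j)‖ ≤ 1/5000 := by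
  obtain ⟨a, ha, rfl⟩ := hx
  have := (h.edge j a ha).hc
  rw [sub_neg_eq_add]
  linarith

lemma not_A_of_near {x s : V} (hs : ‖s‖ = 1) (hx : ‖x - s‖ ≤ 1/5000) : x ∉ (Aset : Set V) := by
  intro hA
  have hA' : ‖x‖ ≤ 1/1000000 := hA
  have : s = x - (x - s) := by abel
  have h2 : ‖s‖ ≤ ‖x‖ + ‖x - s‖ := by
    conv_lhs => rw [this]
    exact norm_sub_le _ _
  rw [hs] at h2
  norm_num at *
  linarith

lemma b_not_A (h : Fam e β γ) {j : Bool} {x : V} (hx : x ∈ Ob β j) : x ∉ (Aset : Set V) :=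
  not_A_of_near (h.unit j) (near_b h hx)

lemma c_not_A (h : Fam e β γ) {j : Bool} {x : V} (hx : x ∈ Oc γ j) : x ∉ (Aset : Set V) :=
  not_A_of_near (neg_unit h j) (near_c h hx)

lemma b_not_c (h : Fam e β γ) {j k : Bool} {x : V} (hx : x ∈ Ob β j) : x ∉ Oc γ k := by
  intro hc
  by_cases hjk : j = k
  · subst hjk
    exact no_two_sites (near_b h hx) (near_c h hc) (sep_anti h j)
  · exact no_two_sites (near_b h hx) (near_c h hc) (sep_bc h hjk).1

lemma b_not_b (h : Fam e β γ) {j k : Bool} (hjk : j ≠ k) {x : V} (hx : x ∈ Ob β j) :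
    x ∉ Ob β k := fun hb => no_two_sites (near_b h hx) (near_b h hb) (sep_bb h hjk).1

lemma c_not_c (h : Fam e β γ) {j k : Bool} (hjk : j ≠ k) {x : V} (hx : x ∈ Oc γ j) :
    x ∉ Oc γ k := fun hc => no_two_sites (near_c h hx) (near_c h hc) (sep_cc h hjk).1

/-- The left inverse of `β j` on the central ball. -/
noncomputable def alpha (β : Bool → V → V) (j : Bool) : V → V :=
  Function.invFunOn (β j) (Aset : Set V)

lemma beta_inj (h : Fam e β γ) (j : Bool) : Set.InjOn (β j) (Aset : Set V) := by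
  intro a1 h1 a2 h2 heq
  have := (edge_lip (h.unit j) (h.edge j a1 h1) (h.edge j a2 h2)).1
  rw [heq, sub_self, norm_zero] at this
  exact sub_eq_zero.mp (norm_le_zero_iff.mp this)

lemma gamma_inj (h : Fam e β γ) (j : Bool) : Set.InjOn (γ j) (Aset : Set V) := by
  intro a1 h1 a2 h2 heq
  have := (edge_lip (h.unit j) (h.edge j a1 h1) (h.edge j a2 h2)).2.1
  rw [heq, sub_self, norm_zero, mul_zero] at this
  exact sub_eq_zero.mp (norm_le_zero_iff.mp this)

lemma alpha_beta (h : Fam e β γ) (j : Bool) {a : V} (ha : a ∈ (Aset : Set V)) :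
    alpha β j (β j a) = a :=
  (beta_inj h j).leftInvOn_invFunOn ha

/-- The potential on the `b` sites. -/
noncomputable def Tf (e : Bool → V) (β γ : Bool → V → V) (j : Bool) (x : V) : ℝ :=
  Tv (e j) (alpha β j x) x (γ j (alpha β j x))

open Classical in
/-- The real dual potential. -/
noncomputable def ru (e : Bool → V) (β γ : Bool → V → V) (x : V) : ℝ :=
  if x ∈ (Aset : Set V) then f0 x
  else if x ∈ Ob β false then Tf e β γ false x
  else if x ∈ Oc γ false then g0 (e false) x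
  else if x ∈ Ob β true then Tf e β γ true x
  else if x ∈ Oc γ true then g0 (e true) x
  else 0

lemma ru_A {x : V} (hx : x ∈ (Aset : Set V)) : ru e β γ x = f0 x := by
  unfold ru; rw [if_pos hx]

lemma ru_b (h : Fam e β γ) {j : Bool} {x : V} (hx : x ∈ Ob β j) : ru e β γ x = Tf e β γ j x := by
  unfold ru
  rw [if_neg (b_not_A h hx)]
  cases j with
  | false => rw [if_pos hx]
  | true =>
    rw [if_neg (b_not_b h (by simp) hx), if_neg (b_not_c h hx), if_pos hx]

lemma ru_c (h : Fam e β γ) {j : Bool} {x : V} (hx : x ∈ Oc γ j) : ru e β γ x = g0 (e j) x := by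
  unfold ru
  rw [if_neg (c_not_A h hx)]
  have h1 : x ∉ Ob β false := fun hb => b_not_c h hb hx
  rw [if_neg h1]
  cases j with
  | false => rw [if_pos hx]
  | true =>
    rw [if_neg (c_not_c h (by simp) hx)]
    have h2 : x ∉ Ob β true := fun hb => b_not_c h hb hx
    rw [if_neg h2, if_pos hx]

lemma ru_beta (h : Fam e β γ) (j : Bool) {a : V} (ha : a ∈ (Aset : Set V)) :
    ru e β γ (β j a) = Tv (e j) a (β j a) (γ j a) := by
  rw [ru_b h ⟨a, ha, rfl⟩]
  unfold Tf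
  rw [alpha_beta h j ha]

/-- Outer points. -/
def IsOut (β γ : Bool → V → V) (x : V) : Prop := ∃ j, x ∈ Ob β j ∨ x ∈ Oc γ j

/-- The support set. -/
def Sset (β γ : Bool → V → V) : Set V := {x | x ∈ (Aset : Set V) ∨ IsOut β γ x}

lemma ru_A_bounds {x : V} (hx : x ∈ (Aset : Set V)) :
    169/100 ≤ ru e β γ x ∧ ru e β γ x ≤ 17/10 := by
  rw [ru_A hx]; exact f0_bounds hx

lemma ru_out_bounds (h : Fam e β γ) {x : V} (hx : IsOut β γ x) :
    38/100 ≤ ru e β γ x ∧ ru e β γ x ≤ 43/100 := by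
  obtain ⟨j, hb | hc⟩ := hx
  · obtain ⟨a, ha, rfl⟩ := id hb
    rw [ru_beta h j ha]
    exact Tv_bounds (h.unit j) (h.edge j a ha)
  · rw [ru_c h hc]
    obtain ⟨a, ha, rfl⟩ := hc
    have := g0_bounds (h.unit j) (h.edge j a ha).hc
    constructor <;> linarith [this.1, this.2]

lemma ru_pos (h : Fam e β γ) {x : V} (hx : x ∈ Sset β γ) : 0 ≤ ru e β γ x := by
  rcases hx with hA | hO
  · linarith [(ru_A_bounds (e := e) (β := β) (γ := γ) hA).1]
  · linarith [(ru_out_bounds h hO).1]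

lemma ru_le (h : Fam e β γ) {x : V} (hx : x ∈ Sset β γ) : ru e β γ x ≤ 17/10 := by
  rcases hx with hA | hO
  · exact (ru_A_bounds (e := e) (β := β) (γ := γ) hA).2
  · linarith [(ru_out_bounds h hO).2]

/-- Every outer point is close to a unit vector. -/
lemma out_near (h : Fam e β γ) {x : V} (hx : IsOut β γ x) : ∃ s : V, ‖s‖ = 1 ∧ ‖x - s‖ ≤ 1/5000 := by
  obtain ⟨j, hb | hc⟩ := hx
  · exact ⟨e j, h.unit j, near_b h hb⟩
  · exact ⟨-e j, neg_unit h j, near_c h hc⟩

/-- The dual inequality for a central point and the two vertices of one family. -/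
lemma dual_abc (h : Fam e β γ) {j : Bool} {x y b : V} (hx : x ∈ (Aset : Set V))
    (hy : y ∈ Oc γ j) (hb : b ∈ Ob β j) (hxy : x ≠ y) (hxb : x ≠ b) (hyb : y ≠ b) :
    ru e β γ x + ru e β γ y + ru e β γ b + (‖x - alpha β j b‖ ^ 2 + ‖y - γ j (alpha β j b)‖ ^ 2)
      ≤ rc x y b := by
  obtain ⟨a, ha, rfl⟩ := id hb
  rw [ru_A hx, ru_c h hy, ru_beta h j ha, alpha_beta h j ha]
  have := dual_lower (h.unit j) (h.edge j a ha) hxb hxy hyb
  unfold rc
  linarith

/-- A central point and two outer points: dual inequality, strict unless the two outer points are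
vertices of one family. -/
lemma aoo_gap (h : Fam e β γ) {x y z : V} (hx : x ∈ (Aset : Set V)) (hy : IsOut β γ y)
    (hz : IsOut β γ z) (hxy : x ≠ y) (hxz : x ≠ z) (hyz : y ≠ z)
    (hno : ¬ ∃ j, (y ∈ Oc γ j ∧ z ∈ Ob β j) ∨ (y ∈ Ob β j ∧ z ∈ Oc γ j)) :
    ru e β γ x + ru e β γ y + ru e β γ z < rc x y z := by
  have b1 := ru_A_bounds (e := e) (β := β) (γ := γ) hx
  have b2 := ru_out_bounds h hy
  have b3 := ru_out_bounds h hz
  have key : ∃ s t : V, ‖s‖ = 1 ∧ ‖t‖ = 1 ∧ ‖s - t‖ ≤ 143/100 ∧ ‖y - s‖ ≤ 1/5000 ∧ ‖z - t‖ ≤ 1/5000 := by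
    obtain ⟨j, hyb | hyc⟩ := hy <;> obtain ⟨k, hzb | hzc⟩ := hz
    · by_cases hjk : j = k
      · subst hjk
        exact ⟨e j, e j, h.unit j, h.unit j, by simp; norm_num, near_b h hyb, near_b h hzb⟩
      · exact ⟨e j, e k, h.unit j, h.unit k, (sep_bb h hjk).2, near_b h hyb, near_b h hzb⟩
    · by_cases hjk : j = k
      · subst hjk
        exact absurd ⟨j, Or.inr ⟨hyb, hzc⟩⟩ hno
      · exact ⟨e j, -e k, h.unit j, neg_unit h k, (sep_bc h hjk).2, near_b h hyb, near_c h hzc⟩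
    · by_cases hjk : j = k
      · subst hjk
        exact absurd ⟨j, Or.inl ⟨hyc, hzb⟩⟩ hno
      · exact ⟨-e j, e k, neg_unit h j, h.unit k, (sep_cb h hjk).2, near_c h hyc, near_b h hzb⟩
    · by_cases hjk : j = k
      · subst hjk
        exact ⟨-e j, -e j, neg_unit h j, neg_unit h j, by simp; norm_num, near_c h hyc, near_c h hzc⟩
      · exact ⟨-e j, -e k, neg_unit h j, neg_unit h k, (sep_cc h hjk).2, near_c h hyc, near_c h hzc⟩
  obtain ⟨s, t, hs, ht, hst, hys, hzt⟩ := key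
  have := gap_AOO hs ht hst hx hys hzt hxy hxz hyz
  linarith [b1.2, b2.2, b3.2]

/-- Three outer points: strict inequality. -/
lemma ooo_gap (h : Fam e β γ) {x y z : V} (hx : IsOut β γ x) (hy : IsOut β γ y)
    (hz : IsOut β γ z) (hxy : x ≠ y) (hxz : x ≠ z) (hyz : y ≠ z) :
    ru e β γ x + ru e β γ y + ru e β γ z < rc x y z := by
  obtain ⟨s, hs, hs'⟩ := out_near h hx
  obtain ⟨t, ht, ht'⟩ := out_near h hy
  obtain ⟨w, hw, hw'⟩ := out_near h hz
  have := gap_OOO hs ht hw hs' ht' hw' hxy hxz hyz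
  linarith [(ru_out_bounds h hx).2, (ru_out_bounds h hy).2, (ru_out_bounds h hz).2]

/-- Two central points: strict inequality. -/
lemma aa_gap (h : Fam e β γ) {x y z : V} (hx : x ∈ (Aset : Set V)) (hy : y ∈ (Aset : Set V))
    (hz : z ∈ Sset β γ) (hxy : x ≠ y) :
    ru e β γ x + ru e β γ y + ru e β γ z < rc x y z := by
  have := gap_AA z hx hy hxy
  linarith [(ru_A_bounds (e := e) (β := β) (γ := γ) hx).2,
    (ru_A_bounds (e := e) (β := β) (γ := γ) hy).2, ru_le h hz]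

/-- The dual inequality for a central point and two outer points. -/
lemma aoo_le (h : Fam e β γ) {x y z : V} (hx : x ∈ (Aset : Set V)) (hy : IsOut β γ y)
    (hz : IsOut β γ z) (hxy : x ≠ y) (hxz : x ≠ z) (hyz : y ≠ z) :
    ru e β γ x + ru e β γ y + ru e β γ z ≤ rc x y z := by
  by_cases hno : ∃ j, (y ∈ Oc γ j ∧ z ∈ Ob β j) ∨ (y ∈ Ob β j ∧ z ∈ Oc γ j)
  · obtain ⟨j, ⟨hy1, hz1⟩ | ⟨hy1, hz1⟩⟩ := hno
    · have := dual_abc h hx hy1 hz1 hxy hxz hyz
      have p : 0 ≤ ‖x - alpha β j z‖ ^ 2 + ‖y - γ j (alpha β j z)‖ ^ 2 := by positivity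
      linarith
    · have := dual_abc h hx hz1 hy1 hxz hxy hyz.symm
      have p : 0 ≤ ‖x - alpha β j y‖ ^ 2 + ‖z - γ j (alpha β j y)‖ ^ 2 := by positivity
      rw [rc_swap23]
      linarith
  · exact (aoo_gap h hx hy hz hxy hxz hyz hno).le

/-- The dual inequality on the whole support set (distinct points). -/
theorem dual_le (h : Fam e β γ) {x y z : V} (hx : x ∈ Sset β γ) (hy : y ∈ Sset β γ)
    (hz : z ∈ Sset β γ) (hxy : x ≠ y) (hxz : x ≠ z) (hyz : y ≠ z) :
    ru e β γ x + ru e β γ y + ru e β γ z ≤ rc x y z := by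
  rcases hx with hxA | hxO <;> rcases hy with hyA | hyO <;> rcases hz with hzA | hzO
  · exact (aa_gap h hxA hyA (Or.inl hzA) hxy).le
  · exact (aa_gap h hxA hyA (Or.inr hzO) hxy).le
  · have := (aa_gap (z := y) h hxA hzA (Or.inr hyO) hxz).le
    rw [rc_swap23]; linarith
  · exact aoo_le h hxA hyO hzO hxy hxz hyz
  · have := (aa_gap (x := y) (y := z) (z := x) h hyA hzA (Or.inr hxO) hyz).le
    rw [rc_swap12, rc_swap23]; linarith
  · have := aoo_le (x := y) (y := x) (z := z) h hyA hxO hzO hxy.symm hyz hxz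
    rw [rc_swap12]; linarith
  · have := aoo_le (x := z) (y := x) (z := y) h hzA hxO hyO hxz.symm hyz.symm hxy
    rw [rc_swap23, rc_swap12]; linarith
  · exact (ooo_gap h hxO hyO hzO hxy hxz hyz).le

/-- The contact lemma: a triple through `b = β j a` on which the dual inequality is an equality
is the edge through `b`. -/
theorem contact (h : Fam e β γ) {j : Bool} {a x y : V} (ha : a ∈ (Aset : Set V))
    (hx : x ∈ Sset β γ) (hy : y ∈ Sset β γ) (hxy : x ≠ y) (hxb : x ≠ β j a) (hyb : y ≠ β j a)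
    (heq : ru e β γ x + ru e β γ y + ru e β γ (β j a) = rc x y (β j a)) :
    (x = a ∧ y = γ j a) ∨ (x = γ j a ∧ y = a) := by
  have hbO : β j a ∈ Ob β j := ⟨a, ha, rfl⟩
  have hbOut : IsOut β γ (β j a) := ⟨j, Or.inl hbO⟩
  have hal := alpha_beta h j ha
  -- the equality case of the dual inequality
  have core : ∀ {x y : V}, x ∈ (Aset : Set V) → IsOut β γ y → x ≠ y → x ≠ β j a → y ≠ β j a →
      ru e β γ x + ru e β γ y + ru e β γ (β j a) = rc x y (β j a) → x = a ∧ y = γ j a := by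
    intro x y hxA hyO hxy hxb hyb heq
    by_cases hyc : y ∈ Oc γ j
    · have := dual_abc h hxA hyc hbO hxy hxb hyb
      rw [hal] at this
      have p1 : 0 ≤ ‖x - a‖ ^ 2 := by positivity
      have p2 : 0 ≤ ‖y - γ j a‖ ^ 2 := by positivity
      have q1 : ‖x - a‖ ^ 2 = 0 := by linarith
      have q2 : ‖y - γ j a‖ ^ 2 = 0 := by linarith
      constructor
      · exact sub_eq_zero.mp (norm_eq_zero.mp (pow_eq_zero_iff (two_ne_zero) |>.mp q1))
      · exact sub_eq_zero.mp (norm_eq_zero.mp (pow_eq_zero_iff (two_ne_zero) |>.mp q2))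
    · exfalso
      have hno : ¬ ∃ k, (y ∈ Oc γ k ∧ β j a ∈ Ob β k) ∨ (y ∈ Ob β k ∧ β j a ∈ Oc γ k) := by
        rintro ⟨k, ⟨h1, h2⟩ | ⟨h1, h2⟩⟩
        · by_cases hjk : j = k
          · subst hjk; exact hyc h1
          · exact b_not_b h hjk hbO h2
        · exact b_not_c h hbO h2
      have := aoo_gap h hxA hyO hbOut hxy hxb hyb hno
      linarith
  rcases hx with hxA | hxO <;> rcases hy with hyA | hyO
  · exfalso
    have := aa_gap (z := β j a) h hxA hyA (Or.inr hbOut) hxy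
    linarith
  · exact Or.inl (core hxA hyO hxy hxb hyb heq)
  · have h2 : ru e β γ y + ru e β γ x + ru e β γ (β j a) = rc y x (β j a) := by
      rw [← rc_swap12]; linarith
    have := core hyA hxO hxy.symm hyb hxb h2
    exact Or.inr ⟨this.2, this.1⟩
  · exfalso
    have := ooo_gap h hxO hyO hbOut hxy hxb hyb
    linarith

/-- On an edge the dual inequality is an equality. -/
theorem edge_eq (h : Fam e β γ) (j : Bool) {a : V} (ha : a ∈ (Aset : Set V)) :
    ru e β γ a + ru e β γ (β j a) + ru e β γ (γ j a) = rc a (β j a) (γ j a) := by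
  rw [ru_A ha, ru_beta h j ha, ru_c h ⟨a, ha, rfl⟩]
  unfold Tv rc
  rw [norm_sub_rev (γ j a) (β j a)]
  ring

lemma edge_ne (h : Fam e β γ) (j : Bool) {a : V} (ha : a ∈ (Aset : Set V)) :
    a ≠ β j a ∧ a ≠ γ j a ∧ β j a ≠ γ j a := by
  have hb : β j a ∈ Ob β j := ⟨a, ha, rfl⟩
  have hc : γ j a ∈ Oc γ j := ⟨a, ha, rfl⟩
  refine ⟨?_, ?_, ?_⟩
  · intro h0; exact b_not_A h hb (h0 ▸ ha)
  · intro h0; exact c_not_A h hc (h0 ▸ ha)
  · intro h0; exact b_not_c h hb (h0 ▸ hc)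

end

end Vale.Agent.Lib.P121
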