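import Vale.Agent.Lib.P121.Defs
import Vale.Agent.Lib.P121.Family
import Vale.Agent.Lib.P121.Abstract

open MeasureTheory ENNReal RealInnerProductSpace

set_option linter.unusedSectionVars false
set_option linter.unnecessarySeqFocus false

namespace Vale.Agent.Lib.P121

/-- The two orthonormal axes. -/
noncomputable def eB : Bool → E3 := fun j =>
  if j then EuclideanSpace.single (1 : Fin 3) (1 : ℝ) else EuclideanSpace.single (0 : Fin 3) (1 : ℝ)

lemma eB_unit (j : Bool) : ‖eB j‖ = 1 := by
  cases j <;> simp [eB]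

lemma eB_orth : ⟪eB false, eB true⟫ = 0 := by
  simp [eB, EuclideanSpace.inner_single_left]

lemma exists_fam : ∃ β γ : Bool → E3 → E3, Fam eB β γ := by
  have key : ∀ (j : Bool) (a : E3), ‖a‖ ≤ 1/1000000 → ∃ b c, IsEdge (eB j) a b c :=
    fun j a ha => edge_exists (eB_unit j) ha
  choose! β γ hedge using key
  exact ⟨β, γ, ⟨eB_unit, eB_orth, hedge⟩⟩

lemma Aset_eq : (Aset : Set E3) = Metric.closedBall 0 (1/1000000) := by
  ext x
  simp [Aset]

lemma Aset_compact : IsCompact (Aset : Set E3) := by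
  rw [Aset_eq]; exact isCompact_closedBall _ _

lemma Aset_meas : MeasurableSet (Aset : Set E3) := Aset_compact.isClosed.measurableSet

section main

variable {β γ : Bool → E3 → E3}

lemma beta_lip (h : Fam eB β γ) (j : Bool) :
    LipschitzOnWith 200 (β j) (Aset : Set E3) := by
  apply LipschitzOnWith.of_dist_le_mul
  intro a1 h1 a2 h2
  have := (edge_lip (h.unit j) (h.edge j a1 h1) (h.edge j a2 h2)).2.2.1
  rw [dist_eq_norm, dist_eq_norm]
  simpa using this

lemma gamma_lip (h : Fam eB β γ) (j : Bool) :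
    LipschitzOnWith 1 (γ j) (Aset : Set E3) := by
  apply LipschitzOnWith.of_dist_le_mul
  intro a1 h1 a2 h2
  have := (edge_lip (h.unit j) (h.edge j a1 h1) (h.edge j a2 h2)).2.2.2
  rw [dist_eq_norm, dist_eq_norm]
  simpa using this

lemma beta_cont (h : Fam eB β γ) (j : Bool) : ContinuousOn (β j) (Aset : Set E3) :=
  (beta_lip h j).continuousOn

lemma gamma_cont (h : Fam eB β γ) (j : Bool) : ContinuousOn (γ j) (Aset : Set E3) :=
  (gamma_lip h j).continuousOn

lemma Ob_compact (h : Fam eB β γ) (j : Bool) : IsCompact (Ob β j) :=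
  Aset_compact.image_of_continuousOn (beta_cont h j)

lemma Oc_compact (h : Fam eB β γ) (j : Bool) : IsCompact (Oc γ j) :=
  Aset_compact.image_of_continuousOn (gamma_cont h j)

lemma Ob_meas (h : Fam eB β γ) (j : Bool) : MeasurableSet (Ob β j) :=
  (Ob_compact h j).isClosed.measurableSet

lemma Oc_meas (h : Fam eB β γ) (j : Bool) : MeasurableSet (Oc γ j) :=
  (Oc_compact h j).isClosed.measurableSet

/-- The left inverse of `γ j`. -/
noncomputable def alpha' (γ : Bool → E3 → E3) (j : Bool) : E3 → E3 :=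
  Function.invFunOn (γ j) (Aset : Set E3)

lemma alpha'_gamma (h : Fam eB β γ) (j : Bool) {a : E3} (ha : a ∈ (Aset : Set E3)) :
    alpha' γ j (γ j a) = a :=
  (gamma_inj h j).leftInvOn_invFunOn ha

lemma alpha_lip (h : Fam eB β γ) (j : Bool) : LipschitzOnWith 1 (alpha β j) (Ob β j) := by
  apply LipschitzOnWith.of_dist_le_mul
  rintro _ ⟨a1, h1, rfl⟩ _ ⟨a2, h2, rfl⟩
  rw [alpha_beta h j h1, alpha_beta h j h2, dist_eq_norm, dist_eq_norm]
  have := (edge_lip (h.unit j) (h.edge j a1 h1) (h.edge j a2 h2)).1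
  simpa using this

lemma alpha'_lip (h : Fam eB β γ) (j : Bool) : LipschitzOnWith 21 (alpha' γ j) (Oc γ j) := by
  apply LipschitzOnWith.of_dist_le_mul
  rintro _ ⟨a1, h1, rfl⟩ _ ⟨a2, h2, rfl⟩
  rw [alpha'_gamma h j h1, alpha'_gamma h j h2, dist_eq_norm, dist_eq_norm]
  have := (edge_lip (h.unit j) (h.edge j a1 h1) (h.edge j a2 h2)).2.1
  simpa using this

lemma alpha_maps (h : Fam eB β γ) (j : Bool) : Set.MapsTo (alpha β j) (Ob β j) (Aset : Set E3) := by
  rintro _ ⟨a, ha, rfl⟩
  rw [alpha_beta h j ha]; exact ha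

/-- Continuity of the `b` potential on its set. -/
lemma Tf_cont (h : Fam eB β γ) (j : Bool) : ContinuousOn (Tf eB β γ j) (Ob β j) := by
  have ha : ContinuousOn (alpha β j) (Ob β j) := (alpha_lip h j).continuousOn
  have hc : ContinuousOn (fun x => γ j (alpha β j x)) (Ob β j) :=
    (gamma_cont h j).comp ha (alpha_maps h j)
  unfold Tf Tv
  have n1 : ∀ x ∈ Ob β j, ‖alpha β j x - x‖ ≠ 0 := by
    rintro _ ⟨a, h1, rfl⟩
    rw [alpha_beta h j h1]
    exact norm_ne_zero_iff.mpr (sub_ne_zero.mpr (edge_ne h j h1).1)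
  have n2 : ∀ x ∈ Ob β j, ‖alpha β j x - γ j (alpha β j x)‖ ≠ 0 := by
    rintro _ ⟨a, h1, rfl⟩
    rw [alpha_beta h j h1]
    exact norm_ne_zero_iff.mpr (sub_ne_zero.mpr (edge_ne h j h1).2.1)
  have n3 : ∀ x ∈ Ob β j, ‖γ j (alpha β j x) - x‖ ≠ 0 := by
    rintro _ ⟨a, h1, rfl⟩
    rw [alpha_beta h j h1]
    exact norm_ne_zero_iff.mpr (sub_ne_zero.mpr (edge_ne h j h1).2.2.symm)
  have c1 : ContinuousOn (fun x => ‖alpha β j x - x‖⁻¹) (Ob β j) :=
    ((ha.sub continuousOn_id).norm).inv₀ n1
  have c2 : ContinuousOn (fun x => ‖alpha β j x - γ j (alpha β j x)‖⁻¹) (Ob β j) :=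
    ((ha.sub hc).norm).inv₀ n2
  have c3 : ContinuousOn (fun x => ‖γ j (alpha β j x) - x‖⁻¹) (Ob β j) :=
    ((hc.sub continuousOn_id).norm).inv₀ n3
  have cf : Continuous (f0 : E3 → ℝ) := by unfold f0; fun_prop
  have cg : Continuous (g0 (eB j) : E3 → ℝ) := by unfold g0; fun_prop
  exact ((((c1.add c2).add c3).sub (cf.comp_continuousOn ha))).sub (cg.comp_continuousOn hc)

/-- The potential `ru` is Borel. -/
lemma ru_meas (h : Fam eB β γ) : Measurable (ru eB β γ) := by
  classical
  have m0 : Measurable ((Ob β false).piecewise (Tf eB β γ false) 0) :=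
    (Tf_cont h false).measurable_piecewise continuousOn_const (Ob_meas h false)
  have m1 : Measurable ((Ob β true).piecewise (Tf eB β γ true) 0) :=
    (Tf_cont h true).measurable_piecewise continuousOn_const (Ob_meas h true)
  have cf : Continuous (f0 : E3 → ℝ) := by unfold f0; fun_prop
  have cg : ∀ j, Continuous (g0 (eB j) : E3 → ℝ) := fun j => by unfold g0; fun_prop
  have key : ru eB β γ = fun x => if x ∈ (Aset : Set E3) then f0 x
      else if x ∈ Ob β false then (Ob β false).piecewise (Tf eB β γ false) 0 x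
      else if x ∈ Oc γ false then g0 (eB false) x
      else if x ∈ Ob β true then (Ob β true).piecewise (Tf eB β γ true) 0 x
      else if x ∈ Oc γ true then g0 (eB true) x
      else 0 := by
    funext x
    unfold ru
    by_cases h1 : x ∈ (Aset : Set E3)
    · rw [if_pos h1, if_pos h1]
    rw [if_neg h1, if_neg h1]
    by_cases h2 : x ∈ Ob β false
    · rw [if_pos h2, if_pos h2, Set.piecewise_eq_of_mem _ _ _ h2]
    rw [if_neg h2, if_neg h2]
    by_cases h3 : x ∈ Oc γ false
    · rw [if_pos h3, if_pos h3]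
    rw [if_neg h3, if_neg h3]
    by_cases h4 : x ∈ Ob β true
    · rw [if_pos h4, if_pos h4, Set.piecewise_eq_of_mem _ _ _ h4]
    rw [if_neg h4, if_neg h4]
  rw [key]
  refine Measurable.ite Aset_meas cf.measurable ?_
  refine Measurable.ite (Ob_meas h false) m0 ?_
  refine Measurable.ite (Oc_meas h false) (cg false).measurable ?_
  refine Measurable.ite (Ob_meas h true) m1 ?_
  exact Measurable.ite (Oc_meas h true) (cg true).measurable measurable_const

end main

/-- Translation of the Coulomb cost to real numbers at distinct points. -/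
lemma coulomb_eq {x y z : E3} (hxy : x ≠ y) (hxz : x ≠ z) (hyz : y ≠ z) :
    coulomb x y z = ENNReal.ofReal (rc x y z) := by
  have key : ∀ {p q : E3}, p ≠ q → (edist p q)⁻¹ = ENNReal.ofReal ‖p - q‖⁻¹ := by
    intro p q hpq
    rw [edist_dist, dist_eq_norm, ENNReal.ofReal_inv_of_pos (norm_pos_iff.mpr (sub_ne_zero.mpr hpq))]
  unfold coulomb rc
  rw [key hxy, key hxz, key hyz, ENNReal.ofReal_add (by positivity) (by positivity),
    ENNReal.ofReal_add (by positivity) (by positivity)]

lemma coulomb_top_left (y z : E3) : coulomb y y z = ⊤ := by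
  unfold coulomb
  simp

lemma coulomb_top_mid (y z : E3) : coulomb y z y = ⊤ := by
  unfold coulomb
  simp

lemma coulomb_top_right (x y : E3) : coulomb x y y = ⊤ := by
  unfold coulomb
  simp

lemma edist_meas : Measurable (fun q : E3 × E3 => edist q.1 q.2) :=
  measurable_fst.edist measurable_snd

lemma coulomb_meas : Measurable (fun p : E3 × E3 × E3 => coulomb p.1 p.2.1 p.2.2) := by
  have m1 : Measurable (fun p : E3 × E3 × E3 => p.1) := measurable_fst
  have m2 : Measurable (fun p : E3 × E3 × E3 => p.2.1) := measurable_fst.comp measurable_snd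
  have m3 : Measurable (fun p : E3 × E3 × E3 => p.2.2) := measurable_snd.comp measurable_snd
  have e1 : Measurable (fun p : E3 × E3 × E3 => (edist p.1 p.2.1)⁻¹) :=
    (edist_meas.comp (m1.prodMk m2)).inv
  have e2 : Measurable (fun p : E3 × E3 × E3 => (edist p.1 p.2.2)⁻¹) :=
    (edist_meas.comp (m1.prodMk m3)).inv
  have e3 : Measurable (fun p : E3 × E3 × E3 => (edist p.2.1 p.2.2)⁻¹) :=
    (edist_meas.comp (m2.prodMk m3)).inv
  have := (e1.add e2).add e3
  exact this

/-- Null sets are preserved by Lipschitz maps. -/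
lemma lip_null {K : NNReal} {g : E3 → E3} {t : Set E3} (hg : LipschitzOnWith K g t)
    (ht : volume t = 0) : volume (g '' t) = 0 := by
  have hH : (μH[(3:ℕ)] : Measure E3).IsAddHaarMeasure := inferInstance
  have ac1 : (μH[(3:ℕ)] : Measure E3) ≪ (volume : Measure E3) :=
    Measure.absolutelyContinuous_isAddHaarMeasure _ _
  have ac2 : (volume : Measure E3) ≪ (μH[(3:ℕ)] : Measure E3) :=
    Measure.absolutelyContinuous_isAddHaarMeasure _ _
  have h0 : (μH[(3:ℕ)] : Measure E3) t = 0 := ac1 ht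
  have h1 := hg.hausdorffMeasure_image_le (d := (3:ℕ)) (by positivity)
  rw [h0, mul_zero] at h1
  exact ac2 (le_antisymm h1 zero_le)

section assembly

variable {β γ : Bool → E3 → E3}

/-- The normalising constant. -/
noncomputable def kap : ℝ≥0∞ := (6 * volume (Aset : Set E3))⁻¹

/-- The base measure: normalised Lebesgue measure on the central ball, of total mass `1/6`. -/
noncomputable def nu0 : Measure E3 := kap • (volume : Measure E3).restrict (Aset : Set E3)

lemma vol_A_pos : volume (Aset : Set E3) ≠ 0 := by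
  rw [Aset_eq]
  exact (Metric.measure_closedBall_pos volume _ (by norm_num)).ne'

lemma vol_A_top : volume (Aset : Set E3) ≠ ⊤ := Aset_compact.measure_lt_top.ne

lemma nu0_total : 6 * nu0 Set.univ = 1 := by
  unfold nu0 kap
  rw [Measure.smul_apply, Measure.restrict_apply_univ, smul_eq_mul, ← mul_assoc]
  have h6 : (6:ℝ≥0∞) ≠ 0 := by norm_num
  have h6' : (6:ℝ≥0∞) ≠ ⊤ := by norm_num
  rw [ENNReal.mul_inv (Or.inl h6) (Or.inl h6'), ← mul_assoc, ENNReal.mul_inv_cancel h6 h6', one_mul,
    ENNReal.inv_mul_cancel vol_A_pos vol_A_top]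

lemma nu0_conc : nu0 (Aset : Set E3)ᶜ = 0 := by
  unfold nu0
  rw [Measure.smul_apply, Measure.restrict_apply Aset_meas.compl]
  simp

lemma nu0_ac : nu0 ≪ volume := by
  unfold nu0
  exact (Measure.smul_absolutelyContinuous).trans Measure.restrict_le_self.absolutelyContinuous

/-- The abstract data are realised by the Euclidean construction. -/
theorem absData (h : Fam eB β γ) :
    AbsData coulomb (fun x => ENNReal.ofReal (ru eB β γ x)) nu0 (Aset : Set E3) β γ where
  c_meas := coulomb_meas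
  c_swap23 := fun x y z => by
    unfold coulomb
    rw [edist_comm y z]
    ring
  c_cycle := fun x y z => by
    unfold coulomb
    rw [edist_comm y x, edist_comm z x]
    ring
  u_meas := ENNReal.measurable_ofReal.comp (ru_meas h)
  A_meas := Aset_meas
  ν_total := nu0_total
  ν_conc := nu0_conc
  b_ae := fun j => ((beta_cont h j).aemeasurable Aset_meas).smul_measure _
  d_ae := fun j => ((gamma_cont h j).aemeasurable Aset_meas).smul_measure _
  b_img := fun j P hP hPA =>
    hP.image_of_continuousOn_injOn ((beta_cont h j).mono hPA) ((beta_inj h j).mono hPA)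
  d_img := fun j P hP hPA =>
    hP.image_of_continuousOn_injOn ((gamma_cont h j).mono hPA) ((gamma_inj h j).mono hPA)
  b_not_A := fun j a ha => b_not_A h ⟨a, ha, rfl⟩
  d_not_A := fun j a ha => c_not_A h ⟨a, ha, rfl⟩
  b_ne_d := fun j k a a' ha ha' he => by
    have h1 : β j a ∈ Oc γ k := by rw [he]; exact ⟨a', ha', rfl⟩
    exact b_not_c h ⟨a, ha, rfl⟩ h1
  b_ne_b := fun j k a a' hjk ha ha' he => by
    have h1 : β j a ∈ Ob β k := by rw [he]; exact ⟨a', ha', rfl⟩
    exact b_not_b h hjk ⟨a, ha, rfl⟩ h1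
  d_ne_d := fun j k a a' hjk ha ha' he => by
    have h1 : γ j a ∈ Oc γ k := by rw [he]; exact ⟨a', ha', rfl⟩
    exact c_not_c h hjk ⟨a, ha, rfl⟩ h1
  b_inj := beta_inj h
  d_inj := gamma_inj h
  bound := ⟨ENNReal.ofReal (17/10), ENNReal.ofReal_ne_top, fun x hx =>
    ENNReal.ofReal_le_ofReal (ru_le h hx)⟩
  dual := fun x y z hx hy hz => by
    by_cases hxy : x = y
    · subst hxy; rw [coulomb_top_left]; exact le_top
    by_cases hxz : x = z
    · subst hxz; rw [coulomb_top_mid]; exact le_top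
    by_cases hyz : y = z
    · subst hyz; rw [coulomb_top_right]; exact le_top
    rw [coulomb_eq hxy hxz hyz, ← ENNReal.ofReal_add (ru_pos h hx) (ru_pos h hy),
      ← ENNReal.ofReal_add (add_nonneg (ru_pos h hx) (ru_pos h hy)) (ru_pos h hz)]
    exact ENNReal.ofReal_le_ofReal (dual_le h hx hy hz hxy hxz hyz)
  edge_eq := fun j a ha => by
    obtain ⟨n1, n2, n3⟩ := edge_ne h j ha
    have ha' : a ∈ Sset β γ := Or.inl ha
    have hb' : β j a ∈ Sset β γ := Or.inr ⟨j, Or.inl ⟨a, ha, rfl⟩⟩
    have hc' : γ j a ∈ Sset β γ := Or.inr ⟨j, Or.inr ⟨a, ha, rfl⟩⟩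
    rw [coulomb_eq n1 n2 n3, ← ENNReal.ofReal_add (ru_pos h ha') (ru_pos h hb'),
      ← ENNReal.ofReal_add (add_nonneg (ru_pos h ha') (ru_pos h hb')) (ru_pos h hc'), edge_eq h j ha]
  contact := fun j a x y ha hx hy he => by
    have hb' : β j a ∈ Sset β γ := Or.inr ⟨j, Or.inl ⟨a, ha, rfl⟩⟩
    have hfin : ENNReal.ofReal (ru eB β γ x) + ENNReal.ofReal (ru eB β γ y)
        + ENNReal.ofReal (ru eB β γ (β j a)) ≠ ⊤ := by
      simp [ENNReal.add_eq_top]
    have hxy : x ≠ y := by
      rintro rfl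
      rw [coulomb_top_left] at he
      exact hfin he.symm
    have hxb : x ≠ β j a := by
      rintro rfl
      rw [coulomb_top_mid] at he
      exact hfin he.symm
    have hyb : y ≠ β j a := by
      rintro rfl
      rw [coulomb_top_right] at he
      exact hfin he.symm
    rw [coulomb_eq hxy hxb hyb, ← ENNReal.ofReal_add (ru_pos h hx) (ru_pos h hy),
      ← ENNReal.ofReal_add (add_nonneg (ru_pos h hx) (ru_pos h hy)) (ru_pos h hb')] at he
    have hreal := (ENNReal.ofReal_eq_ofReal_iff (rc_nonneg _ _ _)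
      (add_nonneg (add_nonneg (ru_pos h hx) (ru_pos h hy)) (ru_pos h hb'))).mp he
    exact contact h ha hx hy hxy hxb hyb hreal.symm

/-- Absolute continuity of the images of the base measure. -/
lemma map_ac {f g : E3 → E3} {K : NNReal} (hf : AEMeasurable f nu0)
    (hg : LipschitzOnWith K g (f '' (Aset : Set E3)))
    (hgf : ∀ a ∈ (Aset : Set E3), g (f a) = a) : nu0.map f ≪ volume := by
  apply Measure.AbsolutelyContinuous.mk
  intro s hs hs0
  rw [Measure.map_apply_of_aemeasurable hf hs]
  unfold nu0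
  rw [Measure.smul_apply, Measure.restrict_apply' Aset_meas]
  have hnull : volume (f ⁻¹' s ∩ (Aset : Set E3)) = 0 := by
    apply measure_mono_null (t := g '' (s ∩ f '' (Aset : Set E3)))
    · rintro a ⟨h1, h2⟩
      exact ⟨f a, ⟨h1, ⟨a, h2, rfl⟩⟩, hgf a h2⟩
    · exact lip_null (hg.mono Set.inter_subset_right) (measure_mono_null Set.inter_subset_left hs0)
  rw [hnull]
  simp

lemma mu_ac (h : Fam eB β γ) : muOf nu0 β γ ≪ volume := by
  have hD := absData h
  have hb : ∀ j, nu0.map (β j) ≪ volume := fun j =>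
    map_ac (hD.b_ae j) (alpha_lip h j) (fun a ha => alpha_beta h j ha)
  have hc : ∀ j, nu0.map (γ j) ≪ volume := fun j =>
    map_ac (hD.d_ae j) (alpha'_lip h j) (fun a ha => alpha'_gamma h j ha)
  unfold muOf
  exact (((((nu0_ac.add_left nu0_ac).add_left (hb false)).add_left (hc false)).add_left
    (hb true)).add_left (hc true))

end assembly

/-- The three particle Coulomb problem in `ℝ³` has an absolutely continuous marginal of finite
Kantorovich value without any optimal Monge plan. -/
theorem main_thm : ∃ μ : Measure E3, IsProbabilityMeasure μ ∧ μ ≪ volume ∧ kantorovich μ < ⊤ ∧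
    ¬ HasOptimalMongePlan μ := by
  obtain ⟨β, γ, h⟩ := exists_fam
  have hD := absData h
  refine ⟨muOf nu0 β γ, hD.mu_prob, mu_ac h, ?_, ?_⟩
  all_goals
    have hval : kantorovich (muOf nu0 β γ)
        = 3 * ∫⁻ x, ENNReal.ofReal (ru eB β γ x) ∂(muOf nu0 β γ) := by
      apply le_antisymm
      · have hm := hD.pi_marg
        unfold kantorovich
        refine (iInf₂_le (piOf nu0 β γ) ⟨hD.pi_prob, hm.1, hm.2.1, hm.2.2⟩).trans ?_
        exact hD.pi_cost.le
      · unfold kantorovich
        refine le_iInf₂ fun π hπ => ?_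
        exact hD.weak hπ.2.1 hπ.2.2.1 hπ.2.2.2
  · rw [hval]
    exact ENNReal.mul_lt_top (by simp) (lt_top_iff_ne_top.mpr hD.lint_finite)
  · rintro ⟨T2, T3, m2, m3, p2, p3, hcost⟩
    rw [hval] at hcost
    exact hD.no_monge m2 m3 p2 p3 hcost

end Vale.Agent.Lib.P121
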