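import Mathlib

open RealInnerProductSpace

namespace Vale.Agent.Lib.P121

variable {V : Type*} [NormedAddCommGroup V] [InnerProductSpace ℝ V]

/-- The gradient of the Coulomb kernel `1/|z|`. -/
noncomputable def N (z : V) : V := (-(‖z‖ ^ 3)⁻¹) • z

lemma N_neg (z : V) : N (-z) = - N z := by
  simp [N, norm_neg]

lemma N_half (z : V) : N z = (1/4 : ℝ) • N ((1/2 : ℝ) • z) := by
  unfold N
  rw [norm_smul, smul_smul, smul_smul]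
  have h2 : ‖(1/2 : ℝ)‖ = 1/2 := by norm_num
  rw [h2]
  congr 1
  by_cases hz : ‖z‖ = 0
  · simp [hz]
  · field_simp
    ring

lemma norm_N_of_unit {e : V} (he : ‖e‖ = 1) : N e = - e := by
  simp [N, he]

lemma inner_N_N (z1 z2 : V) :
    ⟪N z1, N z2⟫ = (‖z1‖ ^ 3)⁻¹ * (‖z2‖ ^ 3)⁻¹ * ⟪z1, z2⟫ := by
  unfold N
  rw [real_inner_smul_left, real_inner_smul_right]
  ring

lemma N_sub_norm_sq {z1 z2 : V} (h1 : z1 ≠ 0) (h2 : z2 ≠ 0) :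
    ‖N z1 - N z2‖ ^ 2 = ‖z1 - z2‖ ^ 2 / (‖z1‖ ^ 3 * ‖z2‖ ^ 3)
      + (‖z1‖ - ‖z2‖) ^ 2 * (‖z1‖ ^ 2 + ‖z1‖ * ‖z2‖ + ‖z2‖ ^ 2) / (‖z1‖ ^ 4 * ‖z2‖ ^ 4) := by
  have hr1 : ‖z1‖ ≠ 0 := norm_ne_zero_iff.mpr h1
  have hr2 : ‖z2‖ ≠ 0 := norm_ne_zero_iff.mpr h2
  have h11 : ⟪N z1, N z1⟫ = (‖z1‖ ^ 3)⁻¹ * (‖z1‖ ^ 3)⁻¹ * ‖z1‖ ^ 2 := by
    rw [inner_N_N, real_inner_self_eq_norm_sq]
  have h22 : ⟪N z2, N z2⟫ = (‖z2‖ ^ 3)⁻¹ * (‖z2‖ ^ 3)⁻¹ * ‖z2‖ ^ 2 := by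
    rw [inner_N_N, real_inner_self_eq_norm_sq]
  have e1 : ‖N z1 - N z2‖ ^ 2 = ⟪N z1, N z1⟫ - 2 * ⟪N z1, N z2⟫ + ⟪N z2, N z2⟫ := by
    rw [norm_sub_sq_real, real_inner_self_eq_norm_sq, real_inner_self_eq_norm_sq]
  have e2 : ‖z1 - z2‖ ^ 2 = ‖z1‖ ^ 2 - 2 * ⟪z1, z2⟫ + ‖z2‖ ^ 2 := norm_sub_sq_real z1 z2
  rw [e1, h11, h22, inner_N_N, e2]
  generalize ⟪z1, z2⟫ = t
  generalize ‖z1‖ = a at *
  generalize ‖z2‖ = b at *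
  field_simp
  ring

/-- Upper Lipschitz bound away from the origin (numeric form). -/
lemma N_lip {z1 z2 : V} (h1 : 9/10 ≤ ‖z1‖) (h2 : 9/10 ≤ ‖z2‖) :
    ‖N z1 - N z2‖ ≤ 3 * ‖z1 - z2‖ := by
  have hz1 : z1 ≠ 0 := by
    intro h; rw [h, norm_zero] at h1; norm_num at h1
  have hz2 : z2 ≠ 0 := by
    intro h; rw [h, norm_zero] at h2; norm_num at h2
  have hid := N_sub_norm_sq hz1 hz2
  have ht : (‖z1‖ - ‖z2‖) ^ 2 ≤ ‖z1 - z2‖ ^ 2 := by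
    have := abs_norm_sub_norm_le z1 z2
    rw [← sq_abs (‖z1‖ - ‖z2‖)]
    gcongr
  set r1 := ‖z1‖ with hr1
  set r2 := ‖z2‖ with hr2
  set D := ‖z1 - z2‖ with hD
  have hDn : 0 ≤ D := norm_nonneg _
  have ha1 : 0 < r1 := by linarith
  have ha2 : 0 < r2 := by linarith
  -- bounds on inverse powers
  set a := r1⁻¹ with ha
  set b := r2⁻¹ with hb
  have ha0 : 0 < a := inv_pos.mpr ha1
  have hb0 : 0 < b := inv_pos.mpr ha2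
  have haU : a ≤ 10/9 := by
    rw [ha, inv_le_comm₀ ha1 (by norm_num)]
    norm_num
    linarith
  have hbU : b ≤ 10/9 := by
    rw [hb, inv_le_comm₀ ha2 (by norm_num)]
    norm_num
    linarith
  have hid2 : ‖N z1 - N z2‖ ^ 2 = D ^ 2 * (a ^ 3 * b ^ 3)
      + (r1 - r2) ^ 2 * (a ^ 2 * b ^ 4 + a ^ 3 * b ^ 3 + a ^ 4 * b ^ 2) := by
    rw [hid, ha, hb]
    field_simp
  have hab : a ^ 3 * b ^ 3 ≤ (10/9) ^ 6 := by
    calc a ^ 3 * b ^ 3 ≤ (10/9) ^ 3 * (10/9) ^ 3 := by gcongr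
      _ = (10/9) ^ 6 := by norm_num
  have hab2 : a ^ 2 * b ^ 4 ≤ (10/9) ^ 6 := by
    calc a ^ 2 * b ^ 4 ≤ (10/9) ^ 2 * (10/9) ^ 4 := by gcongr
      _ = (10/9) ^ 6 := by norm_num
  have hab3 : a ^ 4 * b ^ 2 ≤ (10/9) ^ 6 := by
    calc a ^ 4 * b ^ 2 ≤ (10/9) ^ 4 * (10/9) ^ 2 := by gcongr
      _ = (10/9) ^ 6 := by norm_num
  have hsq : ‖N z1 - N z2‖ ^ 2 ≤ (3 * D) ^ 2 := by
    rw [hid2]
    have hS : 0 ≤ a ^ 2 * b ^ 4 + a ^ 3 * b ^ 3 + a ^ 4 * b ^ 2 := by positivity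
    have h3 : (r1 - r2) ^ 2 * (a ^ 2 * b ^ 4 + a ^ 3 * b ^ 3 + a ^ 4 * b ^ 2)
        ≤ D ^ 2 * (3 * (10/9) ^ 6) := by
      apply mul_le_mul ht (by linarith) hS (by positivity)
    have h4 : D ^ 2 * (a ^ 3 * b ^ 3) ≤ D ^ 2 * (10/9) ^ 6 := by
      apply mul_le_mul_of_nonneg_left hab (by positivity)
    have h5 : D ^ 2 * (10/9) ^ 6 + D ^ 2 * (3 * (10/9) ^ 6) ≤ (3 * D) ^ 2 := by
      have : (0:ℝ) ≤ D ^ 2 := by positivity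
      norm_num
      nlinarith
    linarith
  exact abs_le_of_sq_le_sq' hsq (by positivity) |>.2

/-- Exact lower bound for the difference of `N`. -/
lemma N_lower_sq {z1 z2 : V} (h1 : z1 ≠ 0) (h2 : z2 ≠ 0) :
    ‖z1 - z2‖ ^ 2 ≤ ‖z1‖ ^ 3 * ‖z2‖ ^ 3 * ‖N z1 - N z2‖ ^ 2 := by
  have hr1 : 0 < ‖z1‖ := norm_pos_iff.mpr h1
  have hr2 : 0 < ‖z2‖ := norm_pos_iff.mpr h2
  rw [N_sub_norm_sq h1 h2]
  have hpos : 0 ≤ ‖z1‖ ^ 3 * ‖z2‖ ^ 3 *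
      ((‖z1‖ - ‖z2‖) ^ 2 * (‖z1‖ ^ 2 + ‖z1‖ * ‖z2‖ + ‖z2‖ ^ 2) / (‖z1‖ ^ 4 * ‖z2‖ ^ 4)) := by
    positivity
  have hmain : ‖z1‖ ^ 3 * ‖z2‖ ^ 3 * (‖z1 - z2‖ ^ 2 / (‖z1‖ ^ 3 * ‖z2‖ ^ 3)) = ‖z1 - z2‖ ^ 2 := by
    field_simp
  rw [mul_add, hmain]
  linarith

/-- Numeric lower bound near the unit sphere. -/
lemma N_lower {z1 z2 : V} (h1 : z1 ≠ 0) (h2 : z2 ≠ 0) (h1' : ‖z1‖ ≤ 11/10) (h2' : ‖z2‖ ≤ 11/10) :
    ‖z1 - z2‖ ≤ 2 * ‖N z1 - N z2‖ := by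
  have h := N_lower_sq h1 h2
  have hb : ‖z1‖ ^ 3 * ‖z2‖ ^ 3 ≤ 4 := by
    calc ‖z1‖ ^ 3 * ‖z2‖ ^ 3 ≤ (11/10) ^ 3 * (11/10) ^ 3 := by gcongr
      _ ≤ 4 := by norm_num
  have hsq : ‖z1 - z2‖ ^ 2 ≤ (2 * ‖N z1 - N z2‖) ^ 2 := by
    calc ‖z1 - z2‖ ^ 2 ≤ ‖z1‖ ^ 3 * ‖z2‖ ^ 3 * ‖N z1 - N z2‖ ^ 2 := h
      _ ≤ 4 * ‖N z1 - N z2‖ ^ 2 := by gcongr
      _ = (2 * ‖N z1 - N z2‖) ^ 2 := by ring
  exact abs_le_of_sq_le_sq' hsq (by positivity) |>.2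

/-- Lipschitz bound near distance two. -/
lemma N_lip_two {y1 y2 : V} (h1 : 9/5 ≤ ‖y1‖) (h2 : 9/5 ≤ ‖y2‖) :
    ‖N y1 - N y2‖ ≤ (3/8) * ‖y1 - y2‖ := by
  have h1' : 9/10 ≤ ‖(1/2 : ℝ) • y1‖ := by
    rw [norm_smul]; norm_num; linarith
  have h2' : 9/10 ≤ ‖(1/2 : ℝ) • y2‖ := by
    rw [norm_smul]; norm_num; linarith
  have h := N_lip h1' h2'
  rw [N_half y1, N_half y2, ← smul_sub, norm_smul]
  rw [← smul_sub, norm_smul] at h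
  have e1 : ‖(1/4 : ℝ)‖ = 1/4 := by norm_num
  have e2 : ‖(1/2 : ℝ)‖ = 1/2 := by norm_num
  rw [e1]
  rw [e2] at h
  linarith

/-- Exact first order lower bound for `1/|z|`. -/
lemma inv_norm_lower {z z0 : V} (hz : z ≠ 0) (hz0 : z0 ≠ 0) :
    ‖z0‖⁻¹ + ⟪N z0, z - z0⟫ - ‖z - z0‖ ^ 2 / (2 * ‖z0‖ ^ 3) ≤ ‖z‖⁻¹ := by
  have hr : 0 < ‖z‖ := norm_pos_iff.mpr hz
  have hr0 : 0 < ‖z0‖ := norm_pos_iff.mpr hz0
  have e1 : ⟪N z0, z - z0⟫ = -(‖z0‖ ^ 3)⁻¹ * (⟪z0, z⟫ - ‖z0‖ ^ 2) := by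
    unfold N
    rw [real_inner_smul_left, inner_sub_right, real_inner_self_eq_norm_sq]
  have e2 : ‖z - z0‖ ^ 2 = ‖z‖ ^ 2 - 2 * ⟪z0, z⟫ + ‖z0‖ ^ 2 := by
    rw [norm_sub_sq_real, real_inner_comm]
  rw [e1, e2]
  generalize ⟪z0, z⟫ = t
  generalize ‖z‖ = r at *
  generalize ‖z0‖ = r0 at *
  have key : r0⁻¹ + -(r0 ^ 3)⁻¹ * (t - r0 ^ 2) - (r ^ 2 - 2 * t + r0 ^ 2) / (2 * r0 ^ 3)
      = r⁻¹ - (r - r0) ^ 2 * (r + 2 * r0) / (2 * r * r0 ^ 3) := by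
    field_simp
    ring
  rw [key]
  have : 0 ≤ (r - r0) ^ 2 * (r + 2 * r0) / (2 * r * r0 ^ 3) := by positivity
  linarith

/-- Explicit inverse of `N`. -/
noncomputable def Ninv (w : V) : V := (-(‖w‖ * √‖w‖)⁻¹) • w

lemma norm_Ninv {w : V} (hw : w ≠ 0) : ‖Ninv w‖ = (√‖w‖)⁻¹ := by
  have hr : 0 < ‖w‖ := norm_pos_iff.mpr hw
  have hs : 0 < √‖w‖ := Real.sqrt_pos.mpr hr
  unfold Ninv
  rw [norm_smul, norm_neg, norm_inv, norm_mul, norm_norm, Real.norm_of_nonneg hs.le]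
  field_simp

lemma N_Ninv {w : V} (hw : w ≠ 0) : N (Ninv w) = w := by
  have hr : 0 < ‖w‖ := norm_pos_iff.mpr hw
  have hs : 0 < √‖w‖ := Real.sqrt_pos.mpr hr
  have hss : √‖w‖ * √‖w‖ = ‖w‖ := Real.mul_self_sqrt hr.le
  unfold N
  rw [norm_Ninv hw]
  unfold Ninv
  rw [smul_smul]
  have : -((√‖w‖)⁻¹ ^ 3)⁻¹ * -(‖w‖ * √‖w‖)⁻¹ = 1 := by
    obtain ⟨x, hx⟩ : ∃ x, x = √‖w‖ := ⟨_, rfl⟩
    rw [← hx] at hss hs ⊢
    rw [← hss]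
    field_simp
  rw [this, one_smul]

/-- `N` is approximately the linear map `v ↦ 3⟪u,v⟫u - v` near the unit vector `u`. -/
lemma N_approx {u z1 z2 : V} (hu : ‖u‖ = 1) (h1 : ‖z1 - u‖ ≤ 1/1000) (h2 : ‖z2 - u‖ ≤ 1/1000) :
    ‖N z1 - N z2 - ((3 * ⟪u, z1 - z2⟫) • u - (z1 - z2))‖ ≤ (1/20) * ‖z1 - z2‖ := by
  have hr1 : |‖z1‖ - 1| ≤ 1/1000 := by
    have := abs_norm_sub_norm_le z1 u
    rw [hu] at this; linarith
  have hr2 : |‖z2‖ - 1| ≤ 1/1000 := by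
    have := abs_norm_sub_norm_le z2 u
    rw [hu] at this; linarith
  have hr1a := abs_le.mp hr1
  have hr2a := abs_le.mp hr2
  set r1 := ‖z1‖ with hr1def
  set r2 := ‖z2‖ with hr2def
  set Dv := z1 - z2 with hDv
  set D := ‖Dv‖ with hD
  have hDn : 0 ≤ D := norm_nonneg _
  have hp1 : 0 < r1 := by linarith
  have hp2 : 0 < r2 := by linarith
  set a := r1⁻¹ with ha
  set b := r2⁻¹ with hb
  have ha0 : 0 < a := inv_pos.mpr hp1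
  have hb0 : 0 < b := inv_pos.mpr hp2
  have haL : 998/1000 ≤ a := by
    rw [ha, le_inv_comm₀ (by norm_num) hp1]
    norm_num
    linarith
  have haU : a ≤ 1002/1000 := by
    rw [ha, inv_le_comm₀ hp1 (by norm_num)]
    norm_num
    linarith
  have hbL : 998/1000 ≤ b := by
    rw [hb, le_inv_comm₀ (by norm_num) hp2]
    norm_num
    linarith
  have hbU : b ≤ 1002/1000 := by
    rw [hb, inv_le_comm₀ hp2 (by norm_num)]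
    norm_num
    linarith
  set t := r1 - r2 with ht
  have htD : |t| ≤ D := abs_norm_sub_norm_le z1 z2
  set A := a ^ 3 * b + a ^ 2 * b ^ 2 + a * b ^ 3 with hA
  have hcube : a ^ 3 - b ^ 3 = - (t * A) := by
    have e1 : a * r1 = 1 := inv_mul_cancel₀ hp1.ne'
    have e2 : b * r2 = 1 := inv_mul_cancel₀ hp2.ne'
    have e3 : a - b = - t * (a * b) := by
      rw [ht]
      have : a - b = a * (b * r2) - b * (a * r1) := by rw [e1, e2]; ring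
      rw [this]; ring
    calc a ^ 3 - b ^ 3 = (a - b) * (a ^ 2 + a * b + b ^ 2) := by ring
      _ = - (t * A) := by rw [e3, hA]; ring
  have hNz1 : N z1 = (-(a ^ 3)) • z1 := by
    unfold N; congr 1; rw [ha, inv_pow]
  have hNz2 : N z2 = (-(b ^ 3)) • z2 := by
    unfold N; congr 1; rw [hb, inv_pow]
  set ι := ⟪u, Dv⟫ with hι
  have hdec : N z1 - N z2 - ((3 * ι) • u - Dv)
      = (1 - a ^ 3) • Dv + (t * A) • (z2 - u) + (t * (A - 3) + 3 * (t - ι)) • u := by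
    have hzz : z1 = Dv + z2 := by rw [hDv]; abel
    rw [hNz1, hNz2]
    have hb3 : b ^ 3 = a ^ 3 + t * A := by linarith [hcube]
    rw [hzz, hb3]
    module
  rw [hdec]
  -- numeric bounds
  have h1a3 : |1 - a ^ 3| ≤ 61/10000 := by
    have l : (998/1000:ℝ) ^ 3 ≤ a ^ 3 := by gcongr
    have u' : a ^ 3 ≤ (1002/1000:ℝ) ^ 3 := by gcongr
    rw [abs_le]; constructor <;> norm_num at l u' ⊢ <;> linarith
  have hAU : A ≤ 30241/10000 := by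
    have e1 : a ^ 3 * b ≤ (1002/1000:ℝ) ^ 3 * (1002/1000) := by gcongr
    have e2 : a ^ 2 * b ^ 2 ≤ (1002/1000:ℝ) ^ 2 * (1002/1000) ^ 2 := by gcongr
    have e3 : a * b ^ 3 ≤ (1002/1000:ℝ) * (1002/1000) ^ 3 := by gcongr
    rw [hA]; norm_num at e1 e2 e3 ⊢; linarith
  have hAL : 29759/10000 ≤ A := by
    have e1 : (998/1000:ℝ) ^ 3 * (998/1000) ≤ a ^ 3 * b := by gcongr
    have e2 : (998/1000:ℝ) ^ 2 * (998/1000) ^ 2 ≤ a ^ 2 * b ^ 2 := by gcongr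
    have e3 : (998/1000:ℝ) * (998/1000) ^ 3 ≤ a * b ^ 3 := by gcongr
    rw [hA]; norm_num at e1 e2 e3 ⊢; linarith
  have hA3 : |A - 3| ≤ 241/10000 := by
    rw [abs_le]; constructor <;> linarith
  have hA0 : 0 ≤ A := by linarith
  -- t minus iota
  have hsum : (r1 + r2) * (t - ι) = ⟪(z1 - u) + (z2 - u) + (2 - r1 - r2) • u, Dv⟫ := by
    have e1 : (r1 + r2) * t = r1 ^ 2 - r2 ^ 2 := by rw [ht]; ring
    have e2 : ⟪z1 + z2, Dv⟫ = r1 ^ 2 - r2 ^ 2 := by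
      rw [hDv, inner_add_left, inner_sub_right, inner_sub_right,
        real_inner_self_eq_norm_sq, real_inner_self_eq_norm_sq, real_inner_comm z1 z2]
      ring
    have e3 : (z1 - u) + (z2 - u) + (2 - r1 - r2) • u = (z1 + z2) - (r1 + r2) • u := by
      module
    rw [e3, inner_sub_left, real_inner_smul_left, e2, ← hι]
    rw [mul_sub, e1]
  have hbd : ‖(z1 - u) + (z2 - u) + (2 - r1 - r2) • u‖ ≤ 4/1000 := by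
    have e1 : ‖(2 - r1 - r2) • u‖ = |2 - r1 - r2| := by
      rw [norm_smul, hu, mul_one, Real.norm_eq_abs]
    have e2 : |2 - r1 - r2| ≤ 2/1000 := by
      rw [abs_le]; constructor <;> linarith [hr1a.1, hr1a.2, hr2a.1, hr2a.2]
    calc ‖(z1 - u) + (z2 - u) + (2 - r1 - r2) • u‖
        ≤ ‖z1 - u‖ + ‖z2 - u‖ + ‖(2 - r1 - r2) • u‖ := norm_add₃_le
      _ ≤ 4/1000 := by rw [e1]; linarith
  have htι : |t - ι| ≤ (21/10000) * D := by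
    have e1 : |(r1 + r2) * (t - ι)| ≤ (4/1000) * D := by
      rw [hsum]
      calc |⟪(z1 - u) + (z2 - u) + (2 - r1 - r2) • u, Dv⟫|
          ≤ ‖(z1 - u) + (z2 - u) + (2 - r1 - r2) • u‖ * ‖Dv‖ := abs_real_inner_le_norm _ _
        _ ≤ (4/1000) * D := by gcongr
    rw [abs_mul, abs_of_pos (by linarith : 0 < r1 + r2)] at e1
    have hq : 1998/1000 ≤ r1 + r2 := by linarith [hr1a.1, hr2a.1]
    have hn : 0 ≤ |t - ι| := abs_nonneg _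
    nlinarith
  -- assemble
  have hT1 : ‖(1 - a ^ 3) • Dv‖ ≤ (61/10000) * D := by
    rw [norm_smul, Real.norm_eq_abs]; gcongr
  have hT2 : ‖(t * A) • (z2 - u)‖ ≤ D * (30241/10000) * (1/1000) := by
    rw [norm_smul, Real.norm_eq_abs, abs_mul, abs_of_nonneg hA0]
    gcongr
  have hT3 : ‖(t * (A - 3) + 3 * (t - ι)) • u‖ ≤ D * (241/10000) + 3 * ((21/10000) * D) := by
    rw [norm_smul, hu, mul_one, Real.norm_eq_abs]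
    calc |t * (A - 3) + 3 * (t - ι)| ≤ |t * (A - 3)| + |3 * (t - ι)| := abs_add_le _ _
      _ = |t| * |A - 3| + 3 * |t - ι| := by
          rw [abs_mul, abs_mul, abs_of_pos (by norm_num : (0:ℝ) < 3)]
      _ ≤ D * (241/10000) + 3 * ((21/10000) * D) := by gcongr
  calc ‖(1 - a ^ 3) • Dv + (t * A) • (z2 - u) + (t * (A - 3) + 3 * (t - ι)) • u‖
      ≤ ‖(1 - a ^ 3) • Dv‖ + ‖(t * A) • (z2 - u)‖ + ‖(t * (A - 3) + 3 * (t - ι)) • u‖ :=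
        norm_add₃_le
    _ ≤ (1/20) * D := by linarith

end Vale.Agent.Lib.P121
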